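import Mathlib

/-!
# P267, package UNI-NERVE (helper994)

Part (C) of helper53's note 1629: from an integral functional on Alexander-Spanier
2-cocycles to a dual integral 2-cocycle, by a zigzag over a finite good cover.
-/

namespace Vale.Agent.P267.H994

open Filter Topology Uniformity

variable {X : Type*}

/-- Alexander-Spanier cochains of degree `q`. -/
abbrev Co (X : Type*) (q : ℕ) := (Fin (q + 1) → X) → ℤ

/-- The coboundary. -/
def d {q : ℕ} (f : Co X q) : Co X (q + 1) :=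
  fun x => ∑ i : Fin (q + 2), (-1) ^ (i : ℕ) * f (fun j => x (i.succAbove j))

/-- The cup product. -/
def cup {p q n : ℕ} (h : p + q = n) (f : Co X p) (g : Co X q) : Co X n :=
  fun x => f (fun i => x ⟨i, by omega⟩) * g (fun i => x ⟨p + i, by omega⟩)

section algebra

lemma d_add {q : ℕ} (f g : Co X q) : d (f + g) = d f + d g := by
  funext x
  simp only [d, Pi.add_apply, mul_add, Finset.sum_add_distrib]

lemma d_zero {q : ℕ} : d (0 : Co X q) = 0 := by
  funext x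
  simp [d]

lemma d_neg {q : ℕ} (f : Co X q) : d (-f) = -d f := by
  funext x
  simp [d]

lemma d_sub {q : ℕ} (f g : Co X q) : d (f - g) = d f - d g := by
  rw [sub_eq_add_neg, d_add, d_neg, sub_eq_add_neg]

/-- `d` as an additive map. -/
def dHom (X : Type*) (q : ℕ) : Co X q →+ Co X (q + 1) where
  toFun := d
  map_zero' := d_zero
  map_add' := d_add

lemma d_zsmul {q : ℕ} (m : ℤ) (f : Co X q) : d (m • f) = m • d f :=
  map_zsmul (dHom X q) m f

lemma d_sum {q : ℕ} {ι : Type*} (s : Finset ι) (f : ι → Co X q) :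
    d (∑ i ∈ s, f i) = ∑ i ∈ s, d (f i) := map_sum (dHom X q) f s

lemma cup_sub_right {p q n : ℕ} (h : p + q = n) (f : Co X p) (g g' : Co X q) :
    cup h f (g - g') = cup h f g - cup h f g' := by
  funext x; simp [cup, mul_sub]

lemma cup_sub_left {p q n : ℕ} (h : p + q = n) (f f' : Co X p) (g : Co X q) :
    cup h (f - f') g = cup h f g - cup h f' g := by
  funext x; simp [cup, sub_mul]

lemma cup_add_right {p q n : ℕ} (h : p + q = n) (f : Co X p) (g g' : Co X q) :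
    cup h f (g + g') = cup h f g + cup h f g' := by
  funext x; simp [cup, mul_add]

lemma cup_zsmul_right {p q n : ℕ} (h : p + q = n) (f : Co X p) (m : ℤ) (g : Co X q) :
    cup h f (m • g) = m • cup h f g := by
  funext x; simp only [cup, Pi.smul_apply, smul_eq_mul]; ring

lemma cup_sum_right {p q n : ℕ} (h : p + q = n) {ι : Type*} (s : Finset ι) (f : Co X p)
    (g : ι → Co X q) : cup h f (∑ i ∈ s, g i) = ∑ i ∈ s, cup h f (g i) := by
  funext x; simp [cup, Finset.mul_sum, Finset.sum_apply]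

lemma ex0 (f : Co X 0) : ∃ F : X → ℤ, f = fun x => F (x 0) :=
  ⟨fun s => f ![s], by funext x; congr 1; funext i; fin_cases i; rfl⟩

lemma ex1 (f : Co X 1) : ∃ F : X → X → ℤ, f = fun x => F (x 0) (x 1) :=
  ⟨fun s t => f ![s, t], by funext x; congr 1; funext i; fin_cases i <;> rfl⟩

lemma ex2 (f : Co X 2) : ∃ F : X → X → X → ℤ, f = fun x => F (x 0) (x 1) (x 2) :=
  ⟨fun s t u => f ![s, t, u], by funext x; congr 1; funext i; fin_cases i <;> rfl⟩

lemma ex3 (f : Co X 3) : ∃ F : X → X → X → X → ℤ, f = fun x => F (x 0) (x 1) (x 2) (x 3) :=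
  ⟨fun s t u v => f ![s, t, u, v], by funext x; congr 1; funext i; fin_cases i <;> rfl⟩

lemma d_ex0 (F : X → ℤ) (x : Fin 2 → X) :
    d (q := 0) (fun x => F (x 0)) x = F (x 1) - F (x 0) := by
  have : d (q := 0) (fun x => F (x 0)) x = (-1) ^ 0 * F (x 1) + (-1) ^ 1 * F (x 0) := by
    unfold d; show ∑ i : Fin 2, _ = _; rw [Fin.sum_univ_two]; rfl
  rw [this]; ring

lemma d_ex1 (F : X → X → ℤ) (x : Fin 3 → X) : d (q := 1) (fun x => F (x 0) (x 1)) x
    = F (x 1) (x 2) - F (x 0) (x 2) + F (x 0) (x 1) := by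
  have : d (q := 1) (fun x => F (x 0) (x 1)) x = (-1) ^ 0 * F (x 1) (x 2)
      + (-1) ^ 1 * F (x 0) (x 2) + (-1) ^ 2 * F (x 0) (x 1) := by
    unfold d; show ∑ i : Fin 3, _ = _; rw [Fin.sum_univ_three]; rfl
  rw [this]; ring

lemma d_ex2 (F : X → X → X → ℤ) (x : Fin 4 → X) :
    d (q := 2) (fun x => F (x 0) (x 1) (x 2)) x
    = F (x 1) (x 2) (x 3) - F (x 0) (x 2) (x 3) + F (x 0) (x 1) (x 3) - F (x 0) (x 1) (x 2) := by
  have : d (q := 2) (fun x => F (x 0) (x 1) (x 2)) x = (-1) ^ 0 * F (x 1) (x 2) (x 3)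
      + (-1) ^ 1 * F (x 0) (x 2) (x 3) + (-1) ^ 2 * F (x 0) (x 1) (x 3)
      + (-1) ^ 3 * F (x 0) (x 1) (x 2) := by
    unfold d; show ∑ i : Fin 4, _ = _; rw [Fin.sum_univ_four]; rfl
  rw [this]; ring

lemma d_ex3 (F : X → X → X → X → ℤ) (x : Fin 5 → X) :
    d (q := 3) (fun x => F (x 0) (x 1) (x 2) (x 3)) x
    = F (x 1) (x 2) (x 3) (x 4) - F (x 0) (x 2) (x 3) (x 4) + F (x 0) (x 1) (x 3) (x 4)
      - F (x 0) (x 1) (x 2) (x 4) + F (x 0) (x 1) (x 2) (x 3) := by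
  have : d (q := 3) (fun x => F (x 0) (x 1) (x 2) (x 3)) x = (-1) ^ 0 * F (x 1) (x 2) (x 3) (x 4)
      + (-1) ^ 1 * F (x 0) (x 2) (x 3) (x 4) + (-1) ^ 2 * F (x 0) (x 1) (x 3) (x 4)
      + (-1) ^ 3 * F (x 0) (x 1) (x 2) (x 4) + (-1) ^ 4 * F (x 0) (x 1) (x 2) (x 3) := by
    unfold d; show ∑ i : Fin 5, _ = _; rw [Fin.sum_univ_five]; rfl
  rw [this]; ring

/-- Leibniz rule in degrees (1,2). -/
lemma d_cup_one_two (a : Co X 1) (t : Co X 2) :
    d (cup (n := 3) rfl a t) = cup (n := 4) rfl (d a) t - cup (n := 4) rfl a (d t) := by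
  obtain ⟨A, rfl⟩ := ex1 a
  obtain ⟨T, rfl⟩ := ex2 t
  funext x
  have e1 := d_ex3 (fun s t u v => A s t * T t u v) x
  have e2 := d_ex1 A (fun i : Fin 3 => x ⟨i, by omega⟩)
  have e3 := d_ex2 T (fun i : Fin 4 => x ⟨1 + i, by omega⟩)
  rw [Pi.sub_apply]
  refine Eq.trans e1 ?_
  unfold cup
  rw [e2]
  erw [e3]
  simp only [Nat.reduceAdd]
  show _ = (A (x 1) (x 2) - A (x 0) (x 2) + A (x 0) (x 1)) * T (x 2) (x 3) (x 4) -
    A (x 0) (x 1) * (T (x 2) (x 3) (x 4) - T (x 1) (x 3) (x 4) + T (x 1) (x 2) (x 4)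
      - T (x 1) (x 2) (x 3))
  ring

/-- Leibniz rule in degrees (0,3). -/
lemma d_cup_zero_three (b : Co X 0) (s : Co X 3) :
    d (cup (n := 3) rfl b s) = cup (n := 4) rfl (d b) s + cup (n := 4) rfl b (d s) := by
  obtain ⟨B, rfl⟩ := ex0 b
  obtain ⟨S, rfl⟩ := ex3 s
  funext x
  have e1 := d_ex3 (fun s t u v => B s * S s t u v) x
  have e2 := d_ex0 B (fun i : Fin 2 => x ⟨i, by omega⟩)
  have e3 := d_ex3 S (fun i : Fin 5 => x ⟨0 + i, by omega⟩)
  rw [Pi.add_apply]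
  refine Eq.trans e1 ?_
  unfold cup
  rw [e2]
  erw [e3]
  show _ = (B (x 1) - B (x 0)) * S (x 1) (x 2) (x 3) (x 4) +
    B (x 0) * (S (x 1) (x 2) (x 3) (x 4) - S (x 0) (x 2) (x 3) (x 4)
        + S (x 0) (x 1) (x 3) (x 4) - S (x 0) (x 1) (x 2) (x 4) + S (x 0) (x 1) (x 2) (x 3))
  ring

end algebra

section small
variable [UniformSpace X]

/-- The filter of small tuples. -/
def sm (n : ℕ) : Filter (Fin n → X) := ⨅ i, ⨅ j, comap (fun x => (x i, x j)) (𝓤 X)

lemma tendsto_sm {m n : ℕ} (s : Fin n → Fin m) :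
    Tendsto (fun x : Fin m → X => fun i => x (s i)) (sm m) (sm n) := by
  unfold sm
  refine tendsto_iInf.2 fun i => tendsto_iInf.2 fun j => ?_
  rw [tendsto_comap_iff]
  have h : (⨅ i, ⨅ j, comap (fun x : Fin m → X => (x i, x j)) (𝓤 X))
      ≤ comap (fun x : Fin m → X => (x (s i), x (s j))) (𝓤 X) :=
    (iInf_le _ (s i)).trans (iInf_le _ (s j))
  exact (tendsto_comap (f := fun x : Fin m → X => (x (s i), x (s j)))).mono_left h

lemma eventually_sm_of_mem {n : ℕ} {V : Set (X × X)} (hV : V ∈ 𝓤 X) :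
    ∀ᶠ x : Fin n → X in sm n, ∀ i j, (x i, x j) ∈ V := by
  rw [eventually_all]
  intro i
  rw [eventually_all]
  intro j
  have h : (sm n : Filter (Fin n → X)) ≤ comap (fun x : Fin n → X => (x i, x j)) (𝓤 X) :=
    (iInf_le _ i).trans (iInf_le _ j)
  exact h (preimage_mem_comap hV)

/-- Equality up to locally zero cochains. -/
def Eqv {q : ℕ} (f g : Co X q) : Prop := ∀ᶠ x in sm (q + 1), f x = g x

/-- Closed, modulo locally zero cochains. -/
def Closed {q : ℕ} (f : Co X q) : Prop := Eqv (d f) 0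

/-- Compactly supported in `U`, modulo locally zero cochains. -/
def CS (U : Set X) {q : ℕ} (f : Co X q) : Prop :=
  ∃ K ⊆ U, IsCompact K ∧ ∀ᶠ x in sm (q + 1), (∃ i, x i ∉ K) → f x = 0

variable {q : ℕ} {f g h : Co X q}

lemma Eqv.refl (f : Co X q) : Eqv f f := Eventually.of_forall fun _ => rfl

lemma Eqv.symm (H : Eqv f g) : Eqv g f := Eventually.mono H fun _ h => h.symm

lemma Eqv.trans (H : Eqv f g) (H' : Eqv g h) : Eqv f h := by
  filter_upwards [H, H'] with x h1 h2 using h1.trans h2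

lemma Eqv.add {f' g' : Co X q} (H : Eqv f g) (H' : Eqv f' g') : Eqv (f + f') (g + g') := by
  filter_upwards [H, H'] with x h1 h2
  rw [Pi.add_apply, Pi.add_apply, h1, h2]

lemma Eqv.sub {f' g' : Co X q} (H : Eqv f g) (H' : Eqv f' g') : Eqv (f - f') (g - g') := by
  filter_upwards [H, H'] with x h1 h2
  rw [Pi.sub_apply, Pi.sub_apply, h1, h2]

lemma Eqv.zsmul (m : ℤ) (H : Eqv f g) : Eqv (m • f) (m • g) := by
  filter_upwards [H] with x h1
  rw [Pi.smul_apply, Pi.smul_apply, h1]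

lemma Eqv.sum {ι : Type*} (s : Finset ι) {f g : ι → Co X q} (H : ∀ i ∈ s, Eqv (f i) (g i)) :
    Eqv (∑ i ∈ s, f i) (∑ i ∈ s, g i) := by
  classical
  induction s using Finset.induction_on with
  | empty => exact Eqv.refl _
  | insert a s ha ih =>
    rw [Finset.sum_insert ha, Finset.sum_insert ha]
    exact (H a (Finset.mem_insert_self a s)).add
      (ih fun i hi => H i (Finset.mem_insert_of_mem hi))

lemma Eqv.d (H : Eqv f g) : Eqv (d f) (d g) := by
  have h1 : ∀ i : Fin (q + 2), ∀ᶠ x : Fin (q + 2) → X in sm (q + 2),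
      f (fun j => x (i.succAbove j)) = g (fun j => x (i.succAbove j)) := fun i =>
    (tendsto_sm (X := X) i.succAbove).eventually H
  filter_upwards [eventually_all.2 h1] with x hx
  unfold H994.d
  exact Finset.sum_congr rfl fun i _ => by rw [hx i]

lemma CS.mono {U V : Set X} (hf : CS U f) (h : U ⊆ V) : CS V f := by
  obtain ⟨K, hK, hc, hx⟩ := hf
  exact ⟨K, hK.trans h, hc, hx⟩

lemma CS.congr {U : Set X} (hf : CS U f) (H : Eqv f g) : CS U g := by
  obtain ⟨K, hK, hc, hx⟩ := hf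
  refine ⟨K, hK, hc, ?_⟩
  filter_upwards [hx, H] with x h1 h2 h3
  rw [← h2, h1 h3]

lemma CS.zero {U : Set X} : CS U (0 : Co X q) :=
  ⟨∅, Set.empty_subset _, isCompact_empty, Eventually.of_forall fun _ _ => rfl⟩

lemma CS.of_eqv_zero {U : Set X} (H : Eqv f 0) : CS U f := CS.zero.congr H.symm

lemma CS.add {U : Set X} (hf : CS U f) (hg : CS U g) : CS U (f + g) := by
  obtain ⟨K, hK, hc, hx⟩ := hf
  obtain ⟨L, hL, hd, hy⟩ := hg
  refine ⟨K ∪ L, Set.union_subset hK hL, hc.union hd, ?_⟩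
  filter_upwards [hx, hy] with x h1 h2 ⟨i, hi⟩
  rw [Set.mem_union, not_or] at hi
  rw [Pi.add_apply, h1 ⟨i, hi.1⟩, h2 ⟨i, hi.2⟩, add_zero]

lemma CS.zsmul {U : Set X} (m : ℤ) (hf : CS U f) : CS U (m • f) := by
  obtain ⟨K, hK, hc, hx⟩ := hf
  refine ⟨K, hK, hc, ?_⟩
  filter_upwards [hx] with x h1 h2
  rw [Pi.smul_apply, h1 h2, smul_zero]

lemma CS.neg {U : Set X} (hf : CS U f) : CS U (-f) := by
  have := hf.zsmul (-1)
  rwa [neg_one_smul] at this

lemma CS.sub {U : Set X} (hf : CS U f) (hg : CS U g) : CS U (f - g) := by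
  rw [sub_eq_add_neg]; exact hf.add hg.neg

lemma CS.sum {U : Set X} {ι : Type*} (s : Finset ι) {f : ι → Co X q}
    (H : ∀ i ∈ s, CS U (f i)) : CS U (∑ i ∈ s, f i) := by
  classical
  induction s using Finset.induction_on with
  | empty => exact CS.zero
  | insert a s ha ih =>
    rw [Finset.sum_insert ha]
    exact (H a (Finset.mem_insert_self a s)).add
      (ih fun i hi => H i (Finset.mem_insert_of_mem hi))

lemma Closed.zero : Closed (0 : Co X q) := by unfold Closed; rw [d_zero]; exact Eqv.refl _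

lemma Closed.zsmul (m : ℤ) (hf : Closed f) : Closed (m • f) := by
  unfold Closed at *
  rw [d_zsmul]; simpa using hf.zsmul m

lemma Closed.add (hf : Closed f) (hg : Closed g) : Closed (f + g) := by
  unfold Closed at *
  rw [d_add]; simpa using Eqv.add hf hg

lemma Closed.sub (hf : Closed f) (hg : Closed g) : Closed (f - g) := by
  unfold Closed at *
  rw [d_sub]; simpa using Eqv.sub hf hg

lemma Closed.sum {ι : Type*} (s : Finset ι) {f : ι → Co X q}
    (H : ∀ i ∈ s, Closed (f i)) : Closed (∑ i ∈ s, f i) := by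
  unfold Closed at *
  rw [d_sum]
  simpa using Eqv.sum s H

/-- Key locality: if `t` is compactly supported in the open `U`, then on small tuples with
`t (tail) ≠ 0` every entry is in `U`. -/
lemma CS.cup_congr {U : Set X} (hU : IsOpen U) {p q n : ℕ} (hn : p + q = n) {a b : Co X p}
    {t : Co X q} (ht : CS U t)
    (hab : ∀ᶠ x in sm (p + 1), (∀ i, x i ∈ U) → a x = b x) :
    Eqv (cup hn a t) (cup hn b t) := by
  obtain ⟨K, hK, hc, hx⟩ := ht
  obtain ⟨V, hV, -, hVU⟩ := lebesgue_number_of_compact_open hc hU hK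
  have h1 : ∀ᶠ x : Fin (n + 1) → X in sm (n + 1),
      (∃ i : Fin (q + 1), x ⟨p + i, by omega⟩ ∉ K) → t (fun i => x ⟨p + i, by omega⟩) = 0 :=
    (tendsto_sm (X := X) (fun i : Fin (q + 1) => (⟨p + i, by omega⟩ : Fin (n + 1)))).eventually hx
  have h2 : ∀ᶠ x : Fin (n + 1) → X in sm (n + 1),
      (∀ i : Fin (p + 1), x ⟨i, by omega⟩ ∈ U) → a (fun i => x ⟨i, by omega⟩) =
        b (fun i => x ⟨i, by omega⟩) :=
    (tendsto_sm (X := X) (fun i : Fin (p + 1) => (⟨i, by omega⟩ : Fin (n + 1)))).eventually hab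
  have h3 : ∀ᶠ x : Fin (n + 1) → X in sm (n + 1), ∀ i j, (x i, x j) ∈ V :=
    eventually_sm_of_mem hV
  filter_upwards [h1, h2, h3] with x e1 e2 e3
  unfold cup
  by_cases hz : t (fun i => x ⟨p + i, by omega⟩) = 0
  · rw [hz, mul_zero, mul_zero]
  · have h4 : x ⟨p + (0 : Fin (q + 1)), by simp; omega⟩ ∈ K := by
      by_contra hcon
      exact hz (e1 ⟨0, hcon⟩)
    rw [e2 fun i => hVU _ h4 (e3 _ _)]

lemma Eqv.cup_right {p q n : ℕ} (hn : p + q = n) (f : Co X p) {g g' : Co X q} (H : Eqv g g') :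
    Eqv (cup hn f g) (cup hn f g') := by
  have h1 : ∀ᶠ x : Fin (n + 1) → X in sm (n + 1),
      g (fun i => x ⟨p + i, by omega⟩) = g' (fun i => x ⟨p + i, by omega⟩) :=
    (tendsto_sm (X := X) (fun i : Fin (q + 1) => (⟨p + i, by omega⟩ : Fin (n + 1)))).eventually H
  filter_upwards [h1] with x e1
  unfold cup
  rw [e1]

/-! ### Cochains with coefficients -/

/-- Alexander-Spanier cochains with values in an abelian group `A`. -/
abbrev CoA (A : Type*) (X : Type*) (q : ℕ) := (Fin (q + 1) → X) → A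

section coeff
variable {A : Type*} [AddCommGroup A]

/-- The coboundary, coefficients in `A`. -/
def dA {q : ℕ} (f : CoA A X q) : CoA A X (q + 1) :=
  fun x => ∑ i : Fin (q + 2), (-1 : ℤ) ^ (i : ℕ) • f (fun j => x (i.succAbove j))

/-- The cup product of an `A`-valued cochain with an integral one. -/
def cupA {p q n : ℕ} (h : p + q = n) (f : CoA A X p) (g : Co X q) : CoA A X n :=
  fun x => g (fun i => x ⟨p + i, by omega⟩) • f (fun i => x ⟨i, by omega⟩)

omit [UniformSpace X]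

lemma dA_int {q : ℕ} (f : Co X q) : dA f = d f := rfl

lemma cupA_int {p q n : ℕ} (h : p + q = n) (f : Co X p) (g : Co X q) :
    cupA h f g = cup h f g := by
  funext x; simp only [cupA, cup, smul_eq_mul, mul_comm]

lemma cupA_sub_right {p q n : ℕ} (h : p + q = n) (f : CoA A X p) (g g' : Co X q) :
    cupA h f (g - g') = cupA h f g - cupA h f g' := by
  funext x; simp [cupA, sub_smul]

lemma cupA_sub_left {p q n : ℕ} (h : p + q = n) (f f' : CoA A X p) (g : Co X q) :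
    cupA h (f - f') g = cupA h f g - cupA h f' g := by
  funext x; simp [cupA, smul_sub]

lemma cupA_add_left {p q n : ℕ} (h : p + q = n) (f f' : CoA A X p) (g : Co X q) :
    cupA h (f + f') g = cupA h f g + cupA h f' g := by
  funext x; simp [cupA]

lemma cupA_add_right {p q n : ℕ} (h : p + q = n) (f : CoA A X p) (g g' : Co X q) :
    cupA h f (g + g') = cupA h f g + cupA h f g' := by
  funext x; simp [cupA, add_smul]

lemma cupA_sum_right {p q n : ℕ} (h : p + q = n) {ι : Type*} (s : Finset ι) (f : CoA A X p)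
    (g : ι → Co X q) : cupA h f (∑ i ∈ s, g i) = ∑ i ∈ s, cupA h f (g i) := by
  funext x; simp [cupA, Finset.sum_smul, Finset.sum_apply]

omit [AddCommGroup A] in
lemma exA0 (f : CoA A X 0) : ∃ F : X → A, f = fun x => F (x 0) :=
  ⟨fun s => f ![s], by funext x; congr 1; funext i; fin_cases i; rfl⟩

omit [AddCommGroup A] in
lemma exA1 (f : CoA A X 1) : ∃ F : X → X → A, f = fun x => F (x 0) (x 1) :=
  ⟨fun s t => f ![s, t], by funext x; congr 1; funext i; fin_cases i <;> rfl⟩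

omit [AddCommGroup A] in
lemma exA2 (f : CoA A X 2) : ∃ F : X → X → X → A, f = fun x => F (x 0) (x 1) (x 2) :=
  ⟨fun s t u => f ![s, t, u], by funext x; congr 1; funext i; fin_cases i <;> rfl⟩

omit [AddCommGroup A] in
lemma exA3 (f : CoA A X 3) : ∃ F : X → X → X → X → A, f = fun x => F (x 0) (x 1) (x 2) (x 3) :=
  ⟨fun s t u v => f ![s, t, u, v], by funext x; congr 1; funext i; fin_cases i <;> rfl⟩

lemma dA_ex0 (F : X → A) (x : Fin 2 → X) :
    dA (q := 0) (fun x => F (x 0)) x = F (x 1) - F (x 0) := by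
  have : dA (q := 0) (fun x => F (x 0)) x = (-1 : ℤ) ^ 0 • F (x 1) + (-1 : ℤ) ^ 1 • F (x 0) := by
    unfold dA; show ∑ i : Fin 2, _ = _; rw [Fin.sum_univ_two]; rfl
  rw [this]; module

lemma dA_ex1 (F : X → X → A) (x : Fin 3 → X) : dA (q := 1) (fun x => F (x 0) (x 1)) x
    = F (x 1) (x 2) - F (x 0) (x 2) + F (x 0) (x 1) := by
  have : dA (q := 1) (fun x => F (x 0) (x 1)) x = (-1 : ℤ) ^ 0 • F (x 1) (x 2)
      + (-1 : ℤ) ^ 1 • F (x 0) (x 2) + (-1 : ℤ) ^ 2 • F (x 0) (x 1) := by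
    unfold dA; show ∑ i : Fin 3, _ = _; rw [Fin.sum_univ_three]; rfl
  rw [this]; module

lemma dA_ex2 (F : X → X → X → A) (x : Fin 4 → X) :
    dA (q := 2) (fun x => F (x 0) (x 1) (x 2)) x
    = F (x 1) (x 2) (x 3) - F (x 0) (x 2) (x 3) + F (x 0) (x 1) (x 3) - F (x 0) (x 1) (x 2) := by
  have : dA (q := 2) (fun x => F (x 0) (x 1) (x 2)) x = (-1 : ℤ) ^ 0 • F (x 1) (x 2) (x 3)
      + (-1 : ℤ) ^ 1 • F (x 0) (x 2) (x 3) + (-1 : ℤ) ^ 2 • F (x 0) (x 1) (x 3)
      + (-1 : ℤ) ^ 3 • F (x 0) (x 1) (x 2) := by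
    unfold dA; show ∑ i : Fin 4, _ = _; rw [Fin.sum_univ_four]; rfl
  rw [this]; module

lemma dA_ex3 (F : X → X → X → X → A) (x : Fin 5 → X) :
    dA (q := 3) (fun x => F (x 0) (x 1) (x 2) (x 3)) x
    = F (x 1) (x 2) (x 3) (x 4) - F (x 0) (x 2) (x 3) (x 4) + F (x 0) (x 1) (x 3) (x 4)
      - F (x 0) (x 1) (x 2) (x 4) + F (x 0) (x 1) (x 2) (x 3) := by
  have : dA (q := 3) (fun x => F (x 0) (x 1) (x 2) (x 3)) x
      = (-1 : ℤ) ^ 0 • F (x 1) (x 2) (x 3) (x 4)
      + (-1 : ℤ) ^ 1 • F (x 0) (x 2) (x 3) (x 4) + (-1 : ℤ) ^ 2 • F (x 0) (x 1) (x 3) (x 4)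
      + (-1 : ℤ) ^ 3 • F (x 0) (x 1) (x 2) (x 4) + (-1 : ℤ) ^ 4 • F (x 0) (x 1) (x 2) (x 3) := by
    unfold dA; show ∑ i : Fin 5, _ = _; rw [Fin.sum_univ_five]; rfl
  rw [this]; module

/-- Leibniz rule in degrees (1,2). -/
lemma dA_cupA_one_two (a : CoA A X 1) (t : Co X 2) :
    dA (cupA (n := 3) rfl a t) = cupA (n := 4) rfl (dA a) t - cupA (n := 4) rfl a (d t) := by
  obtain ⟨A, rfl⟩ := exA1 a
  obtain ⟨T, rfl⟩ := ex2 t
  funext x
  have e1 := dA_ex3 (fun s t u v => T t u v • A s t) x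
  have e2 := dA_ex1 A (fun i : Fin 3 => x ⟨i, by omega⟩)
  have e3 := d_ex2 T (fun i : Fin 4 => x ⟨1 + i, by omega⟩)
  rw [Pi.sub_apply]
  refine Eq.trans e1 ?_
  unfold cupA
  rw [e2]
  erw [e3]
  simp only [Nat.reduceAdd]
  show _ = T (x 2) (x 3) (x 4) • (A (x 1) (x 2) - A (x 0) (x 2) + A (x 0) (x 1)) -
    (T (x 2) (x 3) (x 4) - T (x 1) (x 3) (x 4) + T (x 1) (x 2) (x 4)
      - T (x 1) (x 2) (x 3)) • A (x 0) (x 1)
  module

/-- Leibniz rule in degrees (0,3). -/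
lemma dA_cupA_zero_three (b : CoA A X 0) (s : Co X 3) :
    dA (cupA (n := 3) rfl b s) = cupA (n := 4) rfl (dA b) s + cupA (n := 4) rfl b (d s) := by
  obtain ⟨B, rfl⟩ := exA0 b
  obtain ⟨S, rfl⟩ := ex3 s
  funext x
  have e1 := dA_ex3 (fun s t u v => S s t u v • B s) x
  have e2 := dA_ex0 B (fun i : Fin 2 => x ⟨i, by omega⟩)
  have e3 := d_ex3 S (fun i : Fin 5 => x ⟨0 + i, by omega⟩)
  rw [Pi.add_apply]
  refine Eq.trans e1 ?_
  unfold cupA
  rw [e2]
  erw [e3]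
  show _ = S (x 1) (x 2) (x 3) (x 4) • (B (x 1) - B (x 0)) +
    (S (x 1) (x 2) (x 3) (x 4) - S (x 0) (x 2) (x 3) (x 4)
        + S (x 0) (x 1) (x 3) (x 4) - S (x 0) (x 1) (x 2) (x 4) + S (x 0) (x 1) (x 2) (x 3)) • B (x 0)
  module

end coeff

/-- Equality up to locally zero cochains, coefficients in `A`. -/
def EqvA {A : Type*} {q : ℕ} (f g : CoA A X q) : Prop := ∀ᶠ x in sm (q + 1), f x = g x

lemma EqvA.symm {A : Type*} {q : ℕ} {f g : CoA A X q} (H : EqvA f g) : EqvA g f :=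
  Eventually.mono H fun _ h => h.symm

/-- Key locality: if `t` is compactly supported in the open `U`, then on small tuples with
`t (tail) ≠ 0` every entry is in `U`. -/
lemma CS.cupA_congr {A : Type*} [AddCommGroup A] {U : Set X} (hU : IsOpen U) {p q n : ℕ}
    (hn : p + q = n) {a b : CoA A X p} {t : Co X q} (ht : CS U t)
    (hab : ∀ᶠ x in sm (p + 1), (∀ i, x i ∈ U) → a x = b x) :
    EqvA (cupA hn a t) (cupA hn b t) := by
  obtain ⟨K, hK, hc, hx⟩ := ht
  obtain ⟨V, hV, -, hVU⟩ := lebesgue_number_of_compact_open hc hU hK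
  have h1 : ∀ᶠ x : Fin (n + 1) → X in sm (n + 1),
      (∃ i : Fin (q + 1), x ⟨p + i, by omega⟩ ∉ K) → t (fun i => x ⟨p + i, by omega⟩) = 0 :=
    (tendsto_sm (X := X) (fun i : Fin (q + 1) => (⟨p + i, by omega⟩ : Fin (n + 1)))).eventually hx
  have h2 : ∀ᶠ x : Fin (n + 1) → X in sm (n + 1),
      (∀ i : Fin (p + 1), x ⟨i, by omega⟩ ∈ U) → a (fun i => x ⟨i, by omega⟩) =
        b (fun i => x ⟨i, by omega⟩) :=
    (tendsto_sm (X := X) (fun i : Fin (p + 1) => (⟨i, by omega⟩ : Fin (n + 1)))).eventually hab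
  have h3 : ∀ᶠ x : Fin (n + 1) → X in sm (n + 1), ∀ i j, (x i, x j) ∈ V :=
    eventually_sm_of_mem hV
  filter_upwards [h1, h2, h3] with x e1 e2 e3
  unfold cupA
  by_cases hz : t (fun i => x ⟨p + i, by omega⟩) = 0
  · rw [hz, zero_smul, zero_smul]
  · have h4 : x ⟨p + (0 : Fin (q + 1)), by simp; omega⟩ ∈ K := by
      by_contra hcon
      exact hz (e1 ⟨0, hcon⟩)
    rw [e2 fun i => hVU _ h4 (e3 _ _)]

lemma Eqv.cupA_right {A : Type*} [AddCommGroup A] {p q n : ℕ} (hn : p + q = n) (f : CoA A X p)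
    {g g' : Co X q} (H : Eqv g g') : EqvA (cupA hn f g) (cupA hn f g') := by
  have h1 : ∀ᶠ x : Fin (n + 1) → X in sm (n + 1),
      g (fun i => x ⟨p + i, by omega⟩) = g' (fun i => x ⟨p + i, by omega⟩) :=
    (tendsto_sm (X := X) (fun i : Fin (q + 1) => (⟨p + i, by omega⟩ : Fin (n + 1)))).eventually H
  filter_upwards [h1] with x e1
  unfold cupA
  rw [e1]

/-! ### The zigzag -/

/-- The zigzag data of an integral nerve 2-chain `z` with point classes `ρ`. -/
structure Zig {ι : Type*} [Fintype ι] (U : ι → Set X) (z : ι → ι → ι → ℤ)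
    (ρ : ι → ι → ι → Co X 4) (ζ : Co X 2) where
  σ : ι → ι → Co X 3
  τ : ι → Co X 2
  hσs : ∀ j k, CS (U j ∩ U k) (σ j k)
  hσd : ∀ j k, Eqv (d (σ j k))
    (∑ i, (z i j k • ρ i j k - z j i k • ρ j i k + z j k i • ρ j k i))
  hτs : ∀ k, CS (U k) (τ k)
  hτd : ∀ k, Eqv (d (τ k)) (∑ j, (σ j k - σ k j))
  hζ : ζ = ∑ k, τ k

lemma Zig.closed {ι : Type*} [Fintype ι] {U : ι → Set X} {z : ι → ι → ι → ℤ}
    {ρ : ι → ι → ι → Co X 4} {ζ : Co X 2} (D : Zig U z ρ ζ) : Closed ζ := by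
  obtain ⟨σ, τ, hσs, hσd, hτs, hτd, rfl⟩ := D
  have h1 : Eqv (d (∑ k, τ k)) (∑ k, ∑ j, (σ j k - σ k j)) := by
    rw [d_sum]
    exact Eqv.sum _ fun k _ => hτd k
  refine h1.trans ?_
  have h2 : ∑ k, ∑ j, (σ j k - σ k j) = 0 := by
    simp only [Finset.sum_sub_distrib]
    rw [Finset.sum_comm, sub_self]
  rw [h2]
  exact Eqv.refl _

lemma Zig.cs {ι : Type*} [Fintype ι] {U : ι → Set X} {z : ι → ι → ι → ℤ}
    {ρ : ι → ι → ι → Co X 4} {ζ : Co X 2} (D : Zig U z ρ ζ) : CS (⋃ i, U i) ζ := by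
  obtain ⟨σ, τ, hσs, hσd, hτs, hτd, rfl⟩ := D
  exact CS.sum _ fun k _ => (hτs k).mono (Set.subset_iUnion U k)

/-- **Part (C3)**: existence of the zigzag. -/
theorem exists_zig {ι : Type*} [Fintype ι] {M : Type*} [AddCommGroup M] (U : ι → Set X)
    (lam : Co X 4 →+ M) (u : M) (ρ : ι → ι → ι → Co X 4)
    (hρc : ∀ i j k, (U i ∩ U j ∩ U k).Nonempty → Closed (ρ i j k))
    (hρs : ∀ i j k, (U i ∩ U j ∩ U k).Nonempty → CS (U i ∩ U j ∩ U k) (ρ i j k))
    (hρl : ∀ i j k, (U i ∩ U j ∩ U k).Nonempty → lam (ρ i j k) = u)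
    (B4 : ∀ j k, (U j ∩ U k).Nonempty → ∀ F : Co X 4, Closed F → CS (U j ∩ U k) F → lam F = 0 →
      ∃ σ : Co X 3, CS (U j ∩ U k) σ ∧ Eqv (d σ) F)
    (B3 : ∀ k, (U k).Nonempty → ∀ S : Co X 3, Closed S → CS (U k) S →
      ∃ τ : Co X 2, CS (U k) τ ∧ Eqv (d τ) S)
    (z : ι → ι → ι → ℤ) (hz0 : ∀ i j k, ¬ (U i ∩ U j ∩ U k).Nonempty → z i j k = 0)
    (hz : ∀ j k, ∑ i, (z i j k - z j i k + z j k i) = 0) :
    ∃ ζ : Co X 2, Nonempty (Zig U z ρ ζ) := by
  classical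
  -- the weighted point classes
  set r : ι → ι → ι → Co X 4 := fun i j k => z i j k • ρ i j k with hr
  have hrc : ∀ i j k, Closed (r i j k) := by
    intro i j k
    by_cases h : (U i ∩ U j ∩ U k).Nonempty
    · exact (hρc i j k h).zsmul _
    · rw [hr]; simp only [hz0 i j k h, zero_smul]; exact Closed.zero
  have hrs : ∀ i j k, CS (U i ∩ U j ∩ U k) (r i j k) := by
    intro i j k
    by_cases h : (U i ∩ U j ∩ U k).Nonempty
    · exact (hρs i j k h).zsmul _
    · rw [hr]; simp only [hz0 i j k h, zero_smul]; exact CS.zero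
  have hrl : ∀ i j k, lam (r i j k) = z i j k • u := by
    intro i j k
    by_cases h : (U i ∩ U j ∩ U k).Nonempty
    · rw [hr]; simp only [map_zsmul]; rw [hρl i j k h]
    · rw [hr]; simp only [hz0 i j k h, zero_smul, map_zero]
  set R : ι → ι → Co X 4 := fun j k => ∑ i, (r i j k - r j i k + r j k i) with hR
  have hRc : ∀ j k, Closed (R j k) := fun j k =>
    Closed.sum _ fun i _ => ((hrc _ _ _).sub (hrc _ _ _)).add (hrc _ _ _)
  have hRs : ∀ j k, CS (U j ∩ U k) (R j k) := fun j k =>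
    CS.sum _ fun i _ => (((hrs i j k).mono
      (show U i ∩ U j ∩ U k ⊆ U j ∩ U k from fun x hx => ⟨hx.1.2, hx.2⟩)).sub
      ((hrs j i k).mono
      (show U j ∩ U i ∩ U k ⊆ U j ∩ U k from fun x hx => ⟨hx.1.1, hx.2⟩))).add
      ((hrs j k i).mono
      (show U j ∩ U k ∩ U i ⊆ U j ∩ U k from fun x hx => ⟨hx.1.1, hx.1.2⟩))
  have hRl : ∀ j k, lam (R j k) = 0 := by
    intro j k
    rw [hR]
    simp only [map_sum, map_add, map_sub, hrl]
    rw [← zero_zsmul u, ← hz j k, Finset.sum_smul]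
    refine Finset.sum_congr rfl fun i _ => ?_
    rw [add_smul, sub_smul]
  have hσ : ∀ j k, ∃ σ : Co X 3, CS (U j ∩ U k) σ ∧ Eqv (d σ) (R j k) := by
    intro j k
    by_cases h : (U j ∩ U k).Nonempty
    · exact B4 j k h _ (hRc j k) (hRs j k) (hRl j k)
    · refine ⟨0, CS.zero, ?_⟩
      obtain ⟨K, hK, -, hx⟩ := hRs j k
      rw [Set.not_nonempty_iff_eq_empty.1 h, Set.subset_empty_iff] at hK
      rw [d_zero]
      filter_upwards [hx] with x hx
      exact (hx ⟨0, by rw [hK]; exact Set.notMem_empty _⟩).symm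
  choose σ hσs hσd using hσ
  set S : ι → Co X 3 := fun k => ∑ j, (σ j k - σ k j) with hS
  have hSs : ∀ k, CS (U k) (S k) := fun k =>
    CS.sum _ fun j _ => ((hσs j k).mono Set.inter_subset_right).sub
      ((hσs k j).mono Set.inter_subset_left)
  have hSc : ∀ k, Closed (S k) := by
    intro k
    have h1 : Eqv (d (S k)) (∑ j, (R j k - R k j)) := by
      rw [hS]
      simp only [d_sum, d_sub]
      exact Eqv.sum _ fun j _ => (hσd j k).sub (hσd k j)
    refine h1.trans ?_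
    have h2 : ∑ j, (R j k - R k j) = 0 := by
      rw [hR]
      simp only [← Finset.sum_sub_distrib]
      have e1 : ∑ j, ∑ i, r i j k = ∑ j, ∑ i, r j i k := Finset.sum_comm
      have e2 : ∑ j, ∑ i, r j k i = ∑ j, ∑ i, r i k j := Finset.sum_comm
      have e3 : ∑ j, ∑ i, r k i j = ∑ j, ∑ i, r k j i := Finset.sum_comm
      simp only [Finset.sum_sub_distrib, Finset.sum_add_distrib]
      rw [e1, e2, e3]
      abel
    rw [h2]
    exact Eqv.refl _
  have hτ : ∀ k, ∃ τ : Co X 2, CS (U k) τ ∧ Eqv (d τ) (S k) := by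
    intro k
    by_cases h : (U k).Nonempty
    · exact B3 k h _ (hSc k) (hSs k)
    · refine ⟨0, CS.zero, ?_⟩
      obtain ⟨K, hK, -, hx⟩ := hSs k
      rw [Set.not_nonempty_iff_eq_empty.1 h, Set.subset_empty_iff] at hK
      rw [d_zero]
      filter_upwards [hx] with x hx
      exact (hx ⟨0, by rw [hK]; exact Set.notMem_empty _⟩).symm
  choose τ hτs hτd using hτ
  exact ⟨∑ k, τ k, ⟨⟨σ, τ, hσs, hσd, hτs, hτd, rfl⟩⟩⟩

/-- **Part (C4)**: the evaluation formula, coefficients in any abelian group `A`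
(`A = ℤ` or `ℝ`), values of the functional in any abelian group `M`. -/
theorem Zig.eval {ι : Type*} [Fintype ι] {U : ι → Set X} (hU : ∀ i, IsOpen (U i))
    {z : ι → ι → ι → ℤ} {ρ : ι → ι → ι → Co X 4} {ζ : Co X 2} (D : Zig U z ρ ζ)
    (hz0 : ∀ i j k, ¬ (U i ∩ U j ∩ U k).Nonempty → z i j k = 0)
    (hρs : ∀ i j k, (U i ∩ U j ∩ U k).Nonempty → CS (U i ∩ U j ∩ U k) (ρ i j k))
    {A M : Type*} [AddCommGroup A] [AddCommGroup M] (lam : CoA A X 4 →+ M)
    (lam_eqv : ∀ F, EqvA F 0 → lam F = 0) (lam_d : ∀ G : CoA A X 3, lam (dA G) = 0)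
    (κ : A → M) (hκ : ∀ i j k, (U i ∩ U j ∩ U k).Nonempty → ∀ c : A,
      lam (fun x => ρ i j k x • c) = κ c)
    (f : CoA A X 2) (a : ι → CoA A X 1) (b : ι → ι → CoA A X 0) (n : ι → ι → ι → A)
    (ha : ∀ k, ∀ᶠ x in sm 3, (∀ m, x m ∈ U k) → dA (a k) x = f x)
    (hb : ∀ j k, ∀ᶠ x in sm 2, (∀ m, x m ∈ U j ∩ U k) → dA (b j k) x = a k x - a j x)
    (hn : ∀ i j k, ∀ x, (∀ m, x m ∈ U i ∩ U j ∩ U k) → b j k x - b i k x + b i j x = n i j k) :
    lam (cupA rfl f ζ) = -(∑ i, ∑ j, ∑ k, z i j k • κ (n i j k)) := by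
  classical
  obtain ⟨σ, τ, hσs, hσd, hτs, hτd, rfl⟩ := D
  have lam_congr : ∀ {F G : CoA A X 4}, EqvA F G → lam F = lam G := by
    intro F G H
    have : lam (F - G) = 0 := lam_eqv _ (by
      filter_upwards [H] with x hx
      rw [Pi.sub_apply, hx, sub_self, Pi.zero_apply])
    rwa [map_sub, sub_eq_zero] at this
  set r : ι → ι → ι → Co X 4 := fun i j k => z i j k • ρ i j k with hr
  have hrs : ∀ i j k, CS (U i ∩ U j ∩ U k) (r i j k) := by
    intro i j k
    by_cases h : (U i ∩ U j ∩ U k).Nonempty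
    · exact (hρs i j k h).zsmul _
    · rw [hr]; simp only [hz0 i j k h, zero_smul]; exact CS.zero
  set R : ι → ι → Co X 4 := fun j k => ∑ i, (r i j k - r j i k + r j k i) with hR
  set S : ι → Co X 3 := fun k => ∑ j, (σ j k - σ k j) with hS
  have s1 : lam (cupA rfl f (∑ k, τ k)) = ∑ k, lam (cupA rfl f (τ k)) := by
    rw [cupA_sum_right, map_sum]
  have s2 : ∀ k, lam (cupA rfl f (τ k)) = lam (cupA rfl (a k) (S k)) := by
    intro k
    have e1 : EqvA (cupA (n := 4) rfl f (τ k)) (cupA (n := 4) rfl (dA (a k)) (τ k)) :=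
      ((hτs k).cupA_congr (hU k) rfl (ha k)).symm
    have e2 : cupA (n := 4) rfl (dA (a k)) (τ k)
        = dA (cupA (n := 3) rfl (a k) (τ k)) + cupA (n := 4) rfl (a k) (d (τ k)) := by
      rw [dA_cupA_one_two]; abel
    have e3 : EqvA (cupA (n := 4) rfl (a k) (d (τ k))) (cupA (n := 4) rfl (a k) (S k)) :=
      Eqv.cupA_right rfl (a k) (hτd k)
    rw [lam_congr e1, e2, map_add, lam_d, zero_add, lam_congr e3]
  have s3 : ∑ k, lam (cupA (n := 4) rfl (a k) (S k))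
      = ∑ j, ∑ k, lam (cupA (n := 4) rfl (a k - a j) (σ j k)) := by
    have e1 : ∀ k, lam (cupA (n := 4) rfl (a k) (S k))
        = ∑ j, lam (cupA (n := 4) rfl (a k) (σ j k))
          - ∑ j, lam (cupA (n := 4) rfl (a k) (σ k j)) := by
      intro k
      rw [hS]
      simp only [cupA_sum_right, map_sum, cupA_sub_right, map_sub, Finset.sum_sub_distrib]
    simp only [e1, cupA_sub_left, map_sub, Finset.sum_sub_distrib]
    congr 1
    exact Finset.sum_comm
  have s4 : ∀ j k, lam (cupA (n := 4) rfl (a k - a j) (σ j k))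
      = - lam (cupA (n := 4) rfl (b j k) (R j k)) := by
    intro j k
    have e1 : EqvA (cupA (n := 4) rfl (dA (b j k)) (σ j k))
        (cupA (n := 4) rfl (a k - a j) (σ j k)) :=
      (hσs j k).cupA_congr ((hU j).inter (hU k)) rfl (hb j k)
    have e2 : cupA (n := 4) rfl (dA (b j k)) (σ j k)
        = dA (cupA (n := 3) rfl (b j k) (σ j k)) - cupA (n := 4) rfl (b j k) (d (σ j k)) := by
      rw [dA_cupA_zero_three]; abel
    have e3 : EqvA (cupA (n := 4) rfl (b j k) (d (σ j k))) (cupA (n := 4) rfl (b j k) (R j k)) :=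
      Eqv.cupA_right rfl (b j k) (hσd j k)
    rw [← lam_congr e1, e2, map_sub, lam_d, zero_sub, lam_congr e3]
  have s5 : ∑ j, ∑ k, lam (cupA (n := 4) rfl (b j k) (R j k))
      = ∑ i, ∑ j, ∑ k, lam (cupA (n := 4) rfl (b j k - b i k + b i j) (r i j k)) := by
    have e0 : ∀ j k, lam (cupA (n := 4) rfl (b j k) (R j k))
        = ∑ i, lam (cupA (n := 4) rfl (b j k) (r i j k))
          - ∑ i, lam (cupA (n := 4) rfl (b j k) (r j i k))
          + ∑ i, lam (cupA (n := 4) rfl (b j k) (r j k i)) := by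
      intro j k
      rw [hR]
      simp only [cupA_sum_right, map_sum, cupA_sub_right, cupA_add_right, map_sub, map_add,
        Finset.sum_sub_distrib, Finset.sum_add_distrib]
    simp only [e0, cupA_add_left, cupA_sub_left, map_sub, map_add, Finset.sum_sub_distrib,
      Finset.sum_add_distrib]
    congr 1
    congr 1
    · calc _ = ∑ j, ∑ i, ∑ k, lam (cupA (n := 4) rfl (b j k) (r i j k)) :=
            Finset.sum_congr rfl fun j _ => Finset.sum_comm
        _ = _ := Finset.sum_comm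
    · exact Finset.sum_congr rfl fun j _ => Finset.sum_comm
  have s6 : ∀ i j k, lam (cupA (n := 4) rfl (b j k - b i k + b i j) (r i j k))
      = z i j k • κ (n i j k) := by
    intro i j k
    have e1 : EqvA (cupA (n := 4) rfl (b j k - b i k + b i j) (r i j k))
        (cupA (n := 4) rfl (fun _ => n i j k : CoA A X 0) (r i j k)) := by
      refine (hrs i j k).cupA_congr (((hU i).inter (hU j)).inter (hU k)) rfl ?_
      exact Eventually.of_forall fun x hx => hn i j k x hx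
    have e2 : cupA (n := 4) rfl (fun _ => n i j k : CoA A X 0) (r i j k)
        = z i j k • (fun x => ρ i j k x • n i j k : CoA A X 4) := by
      funext x
      have e3 : (fun i : Fin 5 => x ⟨0 + (i : ℕ), by omega⟩) = x := by
        funext m; congr 1; ext; simp
      simp only [cupA, Pi.smul_apply, hr, smul_eq_mul]
      erw [e3]
      rw [mul_smul]
    rw [lam_congr e1, e2, map_zsmul]
    by_cases h : (U i ∩ U j ∩ U k).Nonempty
    · rw [hκ i j k h]
    · rw [hz0 i j k h, zero_smul, zero_smul]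
  rw [s1]
  simp only [s2]
  rw [s3]
  simp only [s4]
  simp only [Finset.sum_neg_distrib]
  rw [s5]
  simp only [s6]

/-- **Part (C4)** for a nerve cocycle `n` (coefficients in `A`) and an index function `c`:
`lam (f_n ∪ ζ) = ∑ z_ijk κ (n_ijk)`. Only the values and the cocycle condition of `n` on the
index type `ι` are used: `c` need only be a good index at the points of the union of the `U i`. -/
theorem Zig.eval_nerve {ι : Type*} [Fintype ι] {U : ι → Set X} (hU : ∀ i, IsOpen (U i))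
    {z : ι → ι → ι → ℤ} {ρ : ι → ι → ι → Co X 4} {ζ : Co X 2} (D : Zig U z ρ ζ)
    (hz0 : ∀ i j k, ¬ (U i ∩ U j ∩ U k).Nonempty → z i j k = 0)
    (hρs : ∀ i j k, (U i ∩ U j ∩ U k).Nonempty → CS (U i ∩ U j ∩ U k) (ρ i j k))
    {A M : Type*} [AddCommGroup A] [AddCommGroup M] (lam : CoA A X 4 →+ M)
    (lam_eqv : ∀ F, EqvA F 0 → lam F = 0) (lam_d : ∀ G : CoA A X 3, lam (dA G) = 0)
    (κ : A → M) (hκ : ∀ i j k, (U i ∩ U j ∩ U k).Nonempty → ∀ c : A,
      lam (fun x => ρ i j k x • c) = κ c)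
    {J : Type*} (W : J → Set X) (emb : ι → J) (hW : ∀ i, W (emb i) = U i)
    (n : J → J → J → A) (hnc : ∀ i j k l, (W i ∩ W j ∩ W k ∩ W l).Nonempty →
      n j k l - n i k l + n i j l - n i j k = 0)
    (c : X → J) (hc : ∀ i, ∀ᶠ x : Fin 3 → X in sm 3, (∀ m, x m ∈ U i) → ∀ s t, x t ∈ W (c (x s))) :
    lam (cupA rfl (fun x => n (c (x 0)) (c (x 1)) (c (x 2)) : CoA A X 2) ζ)
      = ∑ i, ∑ j, ∑ k, z i j k • κ (n (emb i) (emb j) (emb k)) := by
  have hc' : ∀ i, ∀ᶠ x : Fin 2 → X in sm 2, (∀ m, x m ∈ U i) → ∀ s t, x t ∈ W (c (x s)) := by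
    intro i
    filter_upwards [(tendsto_sm (X := X) (m := 2) ![0, 0, 1]).eventually (hc i)] with x hx hm s t
    have h1 := hx (by intro m; fin_cases m <;> exact hm _)
    fin_cases s <;> fin_cases t
    · exact h1 0 0
    · exact h1 0 2
    · exact h1 2 0
    · exact h1 2 2
  have hc1 : ∀ i, ∀ x ∈ U i, x ∈ W (c x) := by
    intro i x hx
    obtain ⟨V, hV, h⟩ : ∃ V ∈ 𝓤 X, ∀ y : Fin 3 → X, (∀ i j, (y i, y j) ∈ V) →
        (∀ m, y m ∈ U i) → ∀ s t, y t ∈ W (c (y s)) := by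
      have h0 := hc i
      unfold sm at h0
      have h' : {x | (∀ m, x m ∈ U i) → ∀ s t, x t ∈ W (c (x s))} ∈
          ⨅ (ij : Fin 3 × Fin 3), comap (fun x : Fin 3 → X => (x ij.1, x ij.2)) (𝓤 X) := by
        rw [iInf_prod]; exact h0
      rw [mem_iInf_of_finite] at h'
      obtain ⟨f, hf, hfe⟩ := h'
      choose T hT hTf using fun ij => mem_comap.1 (hf ij)
      refine ⟨⋂ ij, T ij, (iInter_mem).2 hT, fun y hy => ?_⟩
      have : y ∈ {x : Fin 3 → X | (∀ m, x m ∈ U i) → ∀ s t, x t ∈ W (c (x s))} := by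
        rw [hfe, Set.mem_iInter]
        intro ij
        exact hTf ij (Set.mem_iInter.1 (hy ij.1 ij.2) ij)
      exact this
    exact h (fun _ => x) (fun _ _ => refl_mem_uniformity hV) (fun _ => hx) 0 0
  have e := D.eval hU hz0 hρs lam lam_eqv lam_d (fun s => - κ (- s))
    (by
      intro i j k h s
      have h1 := hκ i j k h (-s)
      have h2 : (fun x => ρ i j k x • (-s) : CoA A X 4) = -(fun x => ρ i j k x • s) := by
        funext x; simp
      rw [h2, map_neg] at h1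
      rw [← h1, neg_neg])
    (fun x => n (c (x 0)) (c (x 1)) (c (x 2)))
    (fun k => fun x => n (emb k) (c (x 0)) (c (x 1)))
    (fun j k => fun x => - n (emb j) (emb k) (c (x 0)))
    (fun i j k => - n (emb i) (emb j) (emb k)) ?_ ?_ ?_
  · rw [e]
    simp only [neg_neg, smul_neg, Finset.sum_neg_distrib]
  · intro k
    filter_upwards [hc k] with x hx hm
    have h0 := hx hm
    refine (dA_ex1 (fun s t => n (emb k) (c s) (c t)) x).trans ?_
    have h1 := hnc (emb k) (c (x 0)) (c (x 1)) (c (x 2))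
      ⟨x 0, ⟨⟨(hW k).symm ▸ hm 0, h0 0 0⟩, h0 1 0⟩, h0 2 0⟩
    have h2 : n (c (x 0)) (c (x 1)) (c (x 2)) = n (emb k) (c (x 1)) (c (x 2))
        - n (emb k) (c (x 0)) (c (x 2)) + n (emb k) (c (x 0)) (c (x 1)) := by
      rw [← sub_eq_zero, ← h1]; abel
    rw [h2]
  · intro j k
    filter_upwards [hc' k] with x hx hm
    have h0 := hx fun m => (hm m).2
    refine (dA_ex0 (fun s => - n (emb j) (emb k) (c s)) x).trans ?_
    have h1 := hnc (emb j) (emb k) (c (x 0)) (c (x 1))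
      ⟨x 0, ⟨⟨(hW j).symm ▸ (hm 0).1, (hW k).symm ▸ (hm 0).2⟩, h0 0 0⟩, h0 1 0⟩
    rw [← sub_eq_zero, ← sub_eq_zero.2 h1.symm]; abel
  · intro i j k x hm
    have h1 := hnc (emb i) (emb j) (emb k) (c (x 0))
      ⟨x 0, ⟨⟨(hW i).symm ▸ (hm 0).1.1, (hW j).symm ▸ (hm 0).1.2⟩, (hW k).symm ▸ (hm 0).2⟩,
        hc1 k _ (hm 0).2⟩
    rw [← sub_eq_zero]
    rw [← neg_eq_zero] at h1
    rw [← h1]
    abel

/-- **Part (C3)+(C4)** in one statement, integral coefficients. -/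
theorem zigzag {ι : Type*} [Fintype ι] {M : Type*} [AddCommGroup M] (U : ι → Set X)
    (hU : ∀ i, IsOpen (U i))
    (lam : Co X 4 →+ M) (lam_eqv : ∀ F, Eqv F 0 → lam F = 0) (lam_d : ∀ G : Co X 3, lam (d G) = 0)
    (u : M) (ρ : ι → ι → ι → Co X 4)
    (hρc : ∀ i j k, (U i ∩ U j ∩ U k).Nonempty → Closed (ρ i j k))
    (hρs : ∀ i j k, (U i ∩ U j ∩ U k).Nonempty → CS (U i ∩ U j ∩ U k) (ρ i j k))
    (hρl : ∀ i j k, (U i ∩ U j ∩ U k).Nonempty → lam (ρ i j k) = u)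
    (B4 : ∀ j k, (U j ∩ U k).Nonempty → ∀ F : Co X 4, Closed F → CS (U j ∩ U k) F → lam F = 0 →
      ∃ σ : Co X 3, CS (U j ∩ U k) σ ∧ Eqv (d σ) F)
    (B3 : ∀ k, (U k).Nonempty → ∀ S : Co X 3, Closed S → CS (U k) S →
      ∃ τ : Co X 2, CS (U k) τ ∧ Eqv (d τ) S)
    (z : ι → ι → ι → ℤ) (hz0 : ∀ i j k, ¬ (U i ∩ U j ∩ U k).Nonempty → z i j k = 0)
    (hz : ∀ j k, ∑ i, (z i j k - z j i k + z j k i) = 0) :
    ∃ ζ : Co X 2, Closed ζ ∧ CS (⋃ i, U i) ζ ∧
      ∀ (f : Co X 2) (a : ι → Co X 1) (b : ι → ι → Co X 0) (n : ι → ι → ι → ℤ),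
      (∀ k, ∀ᶠ x in sm 3, (∀ m, x m ∈ U k) → d (a k) x = f x) →
      (∀ j k, ∀ᶠ x in sm 2, (∀ m, x m ∈ U j ∩ U k) → d (b j k) x = a k x - a j x) →
      (∀ i j k, ∀ x, (∀ m, x m ∈ U i ∩ U j ∩ U k) → b j k x - b i k x + b i j x = n i j k) →
      lam (cup rfl f ζ) = -((∑ i, ∑ j, ∑ k, z i j k * n i j k) • u) := by
  obtain ⟨ζ, ⟨D⟩⟩ := exists_zig U lam u ρ hρc hρs hρl B4 B3 z hz0 hz
  refine ⟨ζ, D.closed, D.cs, fun f a b n ha hb hn => ?_⟩
  have e := D.eval hU hz0 hρs (A := ℤ) lam lam_eqv lam_d (fun c => c • u)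
    (by
      intro i j k h c
      have h1 : (fun x => ρ i j k x • c : CoA ℤ X 4) = c • ρ i j k := by
        funext x; simp [mul_comm]
      rw [h1, map_zsmul, hρl i j k h]) f a b n ha hb hn
  rw [cupA_int] at e
  rw [e]
  simp only [Finset.sum_smul, mul_smul]

end small

end Vale.Agent.P267.H994
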