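import Vale.Agent.P267.H994.Nerve

/-!
# P267, package UNI-NERVE (helper994): Poincare lemma in degrees 0, 1, 2 on sets that can be
contracted by small steps
-/

namespace Vale.Agent.P267.H994

open Filter Topology Uniformity

variable {X : Type*}

lemma dd_one (g : Co X 1) : d (d g) = 0 := by
  obtain ⟨G, rfl⟩ := ex1 g
  have e : d (q := 1) (fun x => G (x 0) (x 1)) = fun x : Fin 3 → X =>
      G (x 1) (x 2) - G (x 0) (x 2) + G (x 0) (x 1) := funext fun x => d_ex1 G x
  rw [e]
  funext x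
  refine (d_ex2 (fun s t u => G t u - G s u + G s t) x).trans ?_
  simp only [Pi.zero_apply]
  ring

lemma dd_zero (g : Co X 0) : d (d g) = 0 := by
  obtain ⟨G, rfl⟩ := ex0 g
  have e : d (q := 0) (fun x => G (x 0)) = fun x : Fin 2 → X =>
      G (x 1) - G (x 0) := funext fun x => d_ex0 G x
  rw [e]
  funext x
  refine (d_ex1 (fun s t => G t - G s) x).trans ?_
  simp only [Pi.zero_apply]
  ring

variable [UniformSpace X]

/-- `U` can be contracted to a point by arbitrarily small steps. -/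
def SmallContr (U : Set X) : Prop :=
  ∀ V ∈ 𝓤 X, ∃ (N : ℕ) (H : ℕ → X → X) (p : X), p ∈ U ∧ (∀ x ∈ U, H 0 x = x) ∧
    (∀ x ∈ U, H N x = p) ∧ (∀ k ≤ N, ∀ x ∈ U, H k x ∈ U) ∧
    (∀ k < N, ∀ x ∈ U, (H k x, H (k + 1) x) ∈ V) ∧
    ∀ k ≤ N, ∀ᶠ xy in 𝓤 X, xy.1 ∈ U → xy.2 ∈ U → (H k xy.1, H k xy.2) ∈ V

/-- Description of `sm n` by entourages. -/
lemma eventually_sm_iff {n : ℕ} {P : (Fin n → X) → Prop} :
    (∀ᶠ x in sm n, P x) ↔ ∃ V ∈ 𝓤 X, ∀ x : Fin n → X, (∀ i j, (x i, x j) ∈ V) → P x := by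
  constructor
  · intro h
    unfold sm at h
    have h' : {x | P x} ∈ ⨅ (ij : Fin n × Fin n), comap (fun x : Fin n → X => (x ij.1, x ij.2)) (𝓤 X) := by
      rw [iInf_prod]; exact h
    rw [mem_iInf_of_finite] at h'
    obtain ⟨f, hf, hfe⟩ := h'
    choose W hW hWf using fun ij => mem_comap.1 (hf ij)
    refine ⟨⋂ ij, W ij, (iInter_mem).2 hW, fun x hx => ?_⟩
    have : x ∈ {x | P x} := by
      rw [hfe, Set.mem_iInter]
      intro ij
      exact hWf ij (Set.mem_iInter.1 (hx ij.1 ij.2) ij)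
    exact this
  · rintro ⟨V, hV, h⟩
    filter_upwards [eventually_sm_of_mem hV] with x hx using h x hx

/-- Degree 0: locally constant functions are constant. -/
lemma SmallContr.const {U : Set X} (hU : SmallContr U) (b : Co X 0)
    (hb : ∀ᶠ x in sm 2, (∀ m, x m ∈ U) → d b x = 0) :
    ∃ c : ℤ, ∀ x, (∀ m, x m ∈ U) → b x = c := by
  obtain ⟨B, rfl⟩ := ex0 b
  obtain ⟨V, hV, h⟩ := eventually_sm_iff.1 hb
  obtain ⟨W, hW, hsymm, hWV⟩ := symm_of_uniformity hV
  obtain ⟨N, H, p, hp, h0, hN, hm, hs, -⟩ := hU W hW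
  refine ⟨B p, fun x hx => ?_⟩
  have key : ∀ k ≤ N, B (H k (x 0)) = B (x 0) := by
    intro k
    induction k with
    | zero => intro _; rw [h0 _ (hx 0)]
    | succ k ih =>
      intro hk
      have e1 := h ![H k (x 0), H (k + 1) (x 0)] ?_ ?_
      · have e2 := d_ex0 B ![H k (x 0), H (k + 1) (x 0)]
        rw [e1] at e2
        simp only [Matrix.cons_val_zero, Matrix.cons_val_one] at e2
        rw [← ih (by omega)]
        linarith
      · intro i j
        have h1 : (H k (x 0), H (k + 1) (x 0)) ∈ W := hs k (by omega) _ (hx 0)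
        have h2 : (H (k + 1) (x 0), H k (x 0)) ∈ W := hsymm.symm _ _ h1
        fin_cases i <;> fin_cases j
        · exact refl_mem_uniformity hV
        · exact hWV h1
        · exact hWV h2
        · exact refl_mem_uniformity hV
      · intro m
        fin_cases m
        · exact hm k (by omega) _ (hx 0)
        · exact hm (k + 1) hk _ (hx 0)
  have := key N le_rfl
  rw [hN _ (hx 0)] at this
  exact this.symm

/-- Degree 1. -/
lemma SmallContr.exact_one {U : Set X} (hU : SmallContr U) (g : Co X 1)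
    (hg : ∀ᶠ x in sm 3, (∀ m, x m ∈ U) → d g x = 0) :
    ∃ b : Co X 0, ∀ᶠ x in sm 2, (∀ m, x m ∈ U) → d b x = g x := by
  obtain ⟨G, rfl⟩ := ex1 g
  obtain ⟨V, hV, h⟩ := eventually_sm_iff.1 hg
  obtain ⟨W, hW, hsymm, hWV⟩ := comp_symm_mem_uniformity_sets hV
  have hWV' : W ⊆ V := (subset_comp_self_of_mem_uniformity hW).trans hWV
  have sy : ∀ {x y : X}, (x, y) ∈ W → (y, x) ∈ W := fun {x y} hxy => hsymm.symm _ _ hxy
  have co : ∀ {x y z : X}, (x, y) ∈ W → (y, z) ∈ W → (x, z) ∈ V := fun {x y z} h1 h2 =>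
    hWV ⟨y, h1, h2⟩
  have clo : ∀ x y z : X, x ∈ U → y ∈ U → z ∈ U → (x, y) ∈ V → (y, x) ∈ V → (x, z) ∈ V →
      (z, x) ∈ V → (y, z) ∈ V → (z, y) ∈ V → G y z - G x z + G x y = 0 := by
    intro x y z hx hy hz h1 h1' h2 h2' h3 h3'
    have e1 := h ![x, y, z] ?_ ?_
    · have e2 := d_ex1 G ![x, y, z]
      rw [e1] at e2
      exact e2.symm
    · intro i j
      fin_cases i <;> fin_cases j <;> first | exact refl_mem_uniformity hV | assumption
    · intro m; fin_cases m <;> assumption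
  obtain ⟨N, H, p, hp, h0, hN, hm, hs, hc⟩ := hU W hW
  have hpp : G p p = 0 := by
    have := clo p p p hp hp hp (refl_mem_uniformity hV) (refl_mem_uniformity hV)
      (refl_mem_uniformity hV) (refl_mem_uniformity hV) (refl_mem_uniformity hV)
      (refl_mem_uniformity hV)
    linarith
  have hc' : ∀ᶠ xy in 𝓤 X, ∀ k ∈ Finset.range (N + 1), xy.1 ∈ U → xy.2 ∈ U →
      (H k xy.1, H k xy.2) ∈ W := by
    rw [Filter.eventually_all_finset]
    exact fun k hk => hc k (by simpa [Nat.lt_succ_iff] using hk)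
  refine ⟨fun x => - ∑ k ∈ Finset.range N, G (H k (x 0)) (H (k + 1) (x 0)), ?_⟩
  filter_upwards [eventually_sm_of_mem (n := 2) hc'] with x hx hxU
  have key : ∀ n ≤ N, (∑ k ∈ Finset.range n, G (H k (x 1)) (H (k + 1) (x 1)))
      - (∑ k ∈ Finset.range n, G (H k (x 0)) (H (k + 1) (x 0)))
      = G (H n (x 0)) (H n (x 1)) - G (x 0) (x 1) := by
    intro n
    induction n with
    | zero => intro _; rw [h0 _ (hxU 0), h0 _ (hxU 1)]; simp
    | succ n ih =>
      intro hn
      have u1 : (H n (x 0), H n (x 1)) ∈ W := hx 0 1 n (by simp; omega) (hxU 0) (hxU 1)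
      have u2 : (H (n + 1) (x 0), H (n + 1) (x 1)) ∈ W :=
        hx 0 1 (n + 1) (by simp; omega) (hxU 0) (hxU 1)
      have u3 : (H n (x 0), H (n + 1) (x 0)) ∈ W := hs n (by omega) _ (hxU 0)
      have u4 : (H n (x 1), H (n + 1) (x 1)) ∈ W := hs n (by omega) _ (hxU 1)
      have m1 := hm n (by omega) _ (hxU 0)
      have m2 := hm n (by omega) _ (hxU 1)
      have m3 := hm (n + 1) (by omega) _ (hxU 0)
      have m4 := hm (n + 1) (by omega) _ (hxU 1)
      -- (a x, b x, b y), (a x, a y, b y)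
      have c1 := clo (H n (x 0)) (H (n + 1) (x 0)) (H (n + 1) (x 1)) m1 m3 m4
        (hWV' u3) (hWV' (sy u3)) (co u3 u2) (co (sy u2) (sy u3)) (hWV' u2) (hWV' (sy u2))
      have c2 := clo (H n (x 0)) (H n (x 1)) (H (n + 1) (x 1)) m1 m2 m4
        (hWV' u1) (hWV' (sy u1)) (co u1 u4) (co (sy u4) (sy u1)) (hWV' u4) (hWV' (sy u4))
      rw [Finset.sum_range_succ, Finset.sum_range_succ]
      have := ih (by omega)
      linarith
  have e := key N le_rfl
  rw [hN _ (hxU 0), hN _ (hxU 1), hpp] at e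
  refine (d_ex0 (fun s => - ∑ k ∈ Finset.range N, G (H k s) (H (k + 1) s)) x).trans ?_
  linarith

/-- Degree 2. -/
lemma SmallContr.exact_two {U : Set X} (hU : SmallContr U) (f : Co X 2)
    (hf : ∀ᶠ x in sm 4, (∀ m, x m ∈ U) → d f x = 0) :
    ∃ a : Co X 1, ∀ᶠ x in sm 3, (∀ m, x m ∈ U) → d a x = f x := by
  obtain ⟨F, rfl⟩ := ex2 f
  obtain ⟨V, hV, h⟩ := eventually_sm_iff.1 hf
  obtain ⟨W, hW, hsymm, hWV⟩ := comp_symm_mem_uniformity_sets hV
  have hWV' : W ⊆ V := (subset_comp_self_of_mem_uniformity hW).trans hWV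
  have sy : ∀ {x y : X}, (x, y) ∈ W → (y, x) ∈ W := fun {x y} hxy => hsymm.symm _ _ hxy
  have co : ∀ {x y z : X}, (x, y) ∈ W → (y, z) ∈ W → (x, z) ∈ V := fun {x y z} h1 h2 =>
    hWV ⟨y, h1, h2⟩
  have clo : ∀ y : Fin 4 → X, (∀ m, y m ∈ U) → (∀ i j, i < j → (y i, y j) ∈ V ∧ (y j, y i) ∈ V) →
      F (y 1) (y 2) (y 3) - F (y 0) (y 2) (y 3) + F (y 0) (y 1) (y 3) - F (y 0) (y 1) (y 2) = 0 := by
    intro y hy hy'
    have e1 := h y ?_ hy
    · have e2 := d_ex2 F y
      rw [e1] at e2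
      exact e2.symm
    · intro i j
      rcases lt_trichotomy i j with hij | rfl | hij
      · exact (hy' i j hij).1
      · exact refl_mem_uniformity hV
      · exact (hy' j i hij).2
  obtain ⟨N, H, p, hp, h0, hN, hm, hs, hc⟩ := hU W hW
  have hc' : ∀ᶠ xy in 𝓤 X, ∀ k ∈ Finset.range (N + 1), xy.1 ∈ U → xy.2 ∈ U →
      (H k xy.1, H k xy.2) ∈ W := by
    rw [Filter.eventually_all_finset]
    exact fun k hk => hc k (by simpa [Nat.lt_succ_iff] using hk)
  let Q : ℕ → X → X → ℤ := fun n s t => ∑ k ∈ Finset.range n,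
    (F (H k s) (H (k + 1) s) (H (k + 1) t) - F (H k s) (H k t) (H (k + 1) t))
  refine ⟨fun x => F p p p - Q N (x 0) (x 1), ?_⟩
  filter_upwards [eventually_sm_of_mem (n := 3) hc'] with x hx hxU
  have key : ∀ n ≤ N, Q n (x 1) (x 2) - Q n (x 0) (x 2) + Q n (x 0) (x 1)
      = F (H n (x 0)) (H n (x 1)) (H n (x 2)) - F (x 0) (x 1) (x 2) := by
    intro n
    induction n with
    | zero => intro _; rw [h0 _ (hxU 0), h0 _ (hxU 1), h0 _ (hxU 2)]; simp [Q]
    | succ n ih =>
      intro hn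
      have a' : ∀ i j, (H n (x i), H n (x j)) ∈ W := fun i j =>
        hx i j n (by simp; omega) (hxU i) (hxU j)
      have b' : ∀ i j, (H (n + 1) (x i), H (n + 1) (x j)) ∈ W := fun i j =>
        hx i j (n + 1) (by simp; omega) (hxU i) (hxU j)
      have ab : ∀ i, (H n (x i), H (n + 1) (x i)) ∈ W := fun i => hs n (by omega) _ (hxU i)
      have aa : ∀ i j, (H n (x i), H n (x j)) ∈ V := fun i j => hWV' (a' i j)
      have bb : ∀ i j, (H (n + 1) (x i), H (n + 1) (x j)) ∈ V := fun i j => hWV' (b' i j)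
      have ab' : ∀ i j, (H n (x i), H (n + 1) (x j)) ∈ V := fun i j => co (a' i j) (ab j)
      have ba' : ∀ i j, (H (n + 1) (x j), H n (x i)) ∈ V := fun i j =>
        co (sy (ab j)) (a' j i)
      have ma : ∀ i, H n (x i) ∈ U := fun i => hm n (by omega) _ (hxU i)
      have mb : ∀ i, H (n + 1) (x i) ∈ U := fun i => hm (n + 1) (by omega) _ (hxU i)
      have c1 := clo ![H n (x 0), H (n + 1) (x 0), H (n + 1) (x 1), H (n + 1) (x 2)]
        (by intro m; fin_cases m <;> first | exact ma _ | exact mb _)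
        (by
          intro i j hij
          fin_cases i <;> fin_cases j <;>
          first
          | (exfalso; revert hij; decide)
          | exact ⟨aa _ _, aa _ _⟩
          | exact ⟨bb _ _, bb _ _⟩
          | exact ⟨ab' _ _, ba' _ _⟩)
      have c2 := clo ![H n (x 0), H n (x 1), H (n + 1) (x 1), H (n + 1) (x 2)]
        (by intro m; fin_cases m <;> first | exact ma _ | exact mb _)
        (by
          intro i j hij
          fin_cases i <;> fin_cases j <;>
          first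
          | (exfalso; revert hij; decide)
          | exact ⟨aa _ _, aa _ _⟩
          | exact ⟨bb _ _, bb _ _⟩
          | exact ⟨ab' _ _, ba' _ _⟩)
      have c3 := clo ![H n (x 0), H n (x 1), H n (x 2), H (n + 1) (x 2)]
        (by intro m; fin_cases m <;> first | exact ma _ | exact mb _)
        (by
          intro i j hij
          fin_cases i <;> fin_cases j <;>
          first
          | (exfalso; revert hij; decide)
          | exact ⟨aa _ _, aa _ _⟩
          | exact ⟨bb _ _, bb _ _⟩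
          | exact ⟨ab' _ _, ba' _ _⟩)
      have e0 := ih (by omega)
      have q1 : ∀ s t, Q (n + 1) s t = Q n s t + (F (H n s) (H (n + 1) s) (H (n + 1) t)
          - F (H n s) (H n t) (H (n + 1) t)) := fun s t => Finset.sum_range_succ _ _
      rw [q1, q1, q1]
      change F (H (n + 1) (x 0)) (H (n + 1) (x 1)) (H (n + 1) (x 2))
        - F (H n (x 0)) (H (n + 1) (x 1)) (H (n + 1) (x 2))
        + F (H n (x 0)) (H (n + 1) (x 0)) (H (n + 1) (x 2))
        - F (H n (x 0)) (H (n + 1) (x 0)) (H (n + 1) (x 1)) = 0 at c1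
      change F (H n (x 1)) (H (n + 1) (x 1)) (H (n + 1) (x 2))
        - F (H n (x 0)) (H (n + 1) (x 1)) (H (n + 1) (x 2))
        + F (H n (x 0)) (H n (x 1)) (H (n + 1) (x 2))
        - F (H n (x 0)) (H n (x 1)) (H (n + 1) (x 1)) = 0 at c2
      change F (H n (x 1)) (H n (x 2)) (H (n + 1) (x 2))
        - F (H n (x 0)) (H n (x 2)) (H (n + 1) (x 2))
        + F (H n (x 0)) (H n (x 1)) (H (n + 1) (x 2))
        - F (H n (x 0)) (H n (x 1)) (H n (x 2)) = 0 at c3
      linarith
  have e := key N le_rfl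
  rw [hN _ (hxU 0), hN _ (hxU 1), hN _ (hxU 2)] at e
  refine (d_ex1 (fun s t => F p p p - Q N s t) x).trans ?_
  linarith

/-- A set with compact closure inside a chart, whose image in the chart is convex, can be
contracted by small steps. -/
lemma SmallContr.of_chart {E : Type*} [NormedAddCommGroup E] [NormedSpace ℝ E]
    (e : OpenPartialHomeomorph X E) {U K : Set X} (hUK : U ⊆ K) (hK : IsCompact K)
    (hKe : K ⊆ e.source) (hne : U.Nonempty) (hconv : Convex ℝ (e '' U)) : SmallContr U := by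
  intro V hV
  have hcont : ContinuousOn e K := e.continuousOn.mono hKe
  have huc : UniformContinuousOn e K := hK.uniformContinuousOn_of_continuous hcont
  have hK' : IsCompact (e '' K) := hK.image_of_continuousOn hcont
  have hsub' : e '' K ⊆ e.target := by
    rintro _ ⟨x, hx, rfl⟩
    exact e.map_source (hKe hx)
  have huc' : UniformContinuousOn e.symm (e '' K) :=
    hK'.uniformContinuousOn_of_continuous (e.symm.continuousOn.mono hsub')
  obtain ⟨p, hp⟩ := hne
  have hbd : Bornology.IsBounded (e '' K) := hK'.isBounded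
  obtain ⟨R, hR⟩ := hbd.exists_norm_le
  -- modulus of continuity for the inverse
  obtain ⟨δ, hδ, hδV⟩ : ∃ δ > 0, ∀ s ∈ e '' K, ∀ t ∈ e '' K, dist s t < δ →
      (e.symm s, e.symm t) ∈ V := by
    have h1 := huc' hV
    rw [mem_map] at h1
    obtain ⟨T, hT, hTs⟩ := mem_inf_principal'.1 h1 |> fun h => (⟨_, h, le_rfl⟩ : ∃ T ∈ 𝓤 E, T ⊆ _)
    obtain ⟨δ, hδ, hδT⟩ := Metric.mem_uniformity_dist.1 hT
    refine ⟨δ, hδ, fun s hs t ht hst => ?_⟩
    rcases hTs (hδT hst) with h2 | h2
    · exact absurd (Set.mk_mem_prod hs ht) h2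
    · exact h2
  obtain ⟨N, hN⟩ : ∃ N : ℕ, 2 * (|R| + 1) / δ < N := exists_nat_gt _
  have hNpos : 0 < (N : ℝ) := lt_trans (by positivity) hN
  have hR' : ∀ x ∈ U, ‖e x‖ ≤ |R| := fun x hx =>
    (hR _ ⟨x, hUK hx, rfl⟩).trans (le_abs_self R)
  let c : ℕ → X → E := fun k x => e x + ((k : ℝ) / N) • (e p - e x)
  have hcU : ∀ k ≤ N, ∀ x ∈ U, c k x ∈ e '' U := by
    intro k hk x hx
    have h1 := hconv ⟨x, hx, rfl⟩ ⟨p, hp, rfl⟩ (a := 1 - (k : ℝ) / N) (b := (k : ℝ) / N)
      (by
        have : (k : ℝ) / N ≤ 1 := by rw [div_le_one hNpos]; exact_mod_cast hk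
        linarith) (by positivity) (by ring)
    convert h1 using 1
    simp only [c, sub_smul, smul_sub, one_smul]
    abel
  have hinv : ∀ x ∈ U, e.symm (e x) = x := fun x hx => e.left_inv (hKe (hUK hx))
  have hHU : ∀ k ≤ N, ∀ x ∈ U, e.symm (c k x) ∈ U := by
    intro k hk x hx
    obtain ⟨y, hy, hye⟩ := hcU k hk x hx
    rw [← hye, hinv y hy]; exact hy
  have himg : ∀ k ≤ N, ∀ x ∈ U, c k x ∈ e '' K := fun k hk x hx =>
    Set.image_mono hUK (hcU k hk x hx)
  refine ⟨N, fun k x => e.symm (c k x), p, hp, ?_, ?_, hHU, ?_, ?_⟩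
  · intro x hx
    simp only [c, Nat.cast_zero, zero_div, zero_smul, add_zero]
    exact hinv x hx
  · intro x hx
    simp only [c]
    rw [div_self hNpos.ne', one_smul, add_sub_cancel]
    exact hinv p hp
  · intro k hk x hx
    refine hδV _ (himg k hk.le x hx) _ (himg (k + 1) hk x hx) ?_
    have e1 : c k x - c (k + 1) x = -((1 : ℝ) / N) • (e p - e x) := by
      simp only [c, Nat.cast_add, Nat.cast_one, add_div, add_smul]
      rw [neg_smul]; abel
    rw [dist_eq_norm, e1, norm_smul, norm_neg, Real.norm_of_nonneg (by positivity)]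
    have e2 : ‖e p - e x‖ ≤ 2 * |R| := by
      have := norm_sub_le (e p) (e x)
      have h1 := hR' p hp
      have h2 := hR' x hx
      linarith
    have e3 : 2 * (|R| + 1) < δ * N := by
      have := (div_lt_iff₀ hδ).1 hN
      linarith
    rw [one_div, inv_mul_lt_iff₀ hNpos]
    nlinarith
  · intro k hk
    -- uniform continuity of e on K, with target δ
    have h1 : ∀ᶠ xy : X × X in 𝓤 X, xy.1 ∈ K → xy.2 ∈ K → dist (e xy.1) (e xy.2) < δ := by
      have h2 := huc (Metric.dist_mem_uniformity hδ)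
      rw [mem_map, mem_inf_principal'] at h2
      filter_upwards [h2] with xy hxy h3 h4
      rcases hxy with h5 | h5
      · exact absurd (Set.mk_mem_prod h3 h4) h5
      · exact h5
    filter_upwards [h1] with xy hxy h2 h3
    have h4 := hxy (hUK h2) (hUK h3)
    refine hδV _ (himg k hk _ h2) _ (himg k hk _ h3) ?_
    have e1 : c k xy.1 - c k xy.2 = (1 - (k : ℝ) / N) • (e xy.1 - e xy.2) := by
      simp only [c, sub_smul, smul_sub, one_smul]; abel
    have hk1 : (k : ℝ) / N ≤ 1 := by rw [div_le_one hNpos]; exact_mod_cast hk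
    have hk0 : 0 ≤ (k : ℝ) / N := by positivity
    rw [dist_eq_norm, e1, norm_smul, Real.norm_of_nonneg (by linarith)]
    rw [dist_eq_norm] at h4
    nlinarith [norm_nonneg (e xy.1 - e xy.2)]

end Vale.Agent.P267.H994
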