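import Vale.Agent.P267.H994.Contract

/-!
# P267, package UNI-NERVE (helper994): local data of a closed 2-cochain, extension of
functionals to the nerve, and the duality theorem.
-/

namespace Vale.Agent.P267.H994

open Filter Topology Uniformity

variable {X : Type*} [UniformSpace X] {ι : Type*}

/-- Local primitives of a closed 2-cochain on a good family. -/
structure LocData (U : ι → Set X) (f : Co X 2) (a : ι → Co X 1) (b : ι → ι → Co X 0)
    (n : ι → ι → ι → ℤ) : Prop where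
  ha : ∀ k, ∀ᶠ x in sm 3, (∀ m, x m ∈ U k) → d (a k) x = f x
  hb : ∀ j k, ∀ᶠ x in sm 2, (∀ m, x m ∈ U j ∩ U k) → d (b j k) x = a k x - a j x
  hn : ∀ i j k, ∀ x, (∀ m, x m ∈ U i ∩ U j ∩ U k) → b j k x - b i k x + b i j x = n i j k

/-- The nerve cocycles (the cocycle condition is only imposed on nonempty 4-fold
intersections). -/
def NZ (U : ι → Set X) : AddSubgroup (ι → ι → ι → ℤ) where
  carrier := {n | ∀ i j k l, (U i ∩ U j ∩ U k ∩ U l).Nonempty →
    n j k l - n i k l + n i j l - n i j k = 0}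
  zero_mem' := by intro i j k l _; simp
  add_mem' := by
    intro m n hm hn i j k l h
    have h1 := hm i j k l h
    have h2 := hn i j k l h
    simp only [Pi.add_apply]
    linarith
  neg_mem' := by
    intro m hm i j k l h
    have h1 := hm i j k l h
    simp only [Pi.neg_apply]
    linarith

lemma exists_locData (U : ι → Set X)
    (h1 : ∀ i, (U i).Nonempty → SmallContr (U i))
    (h2 : ∀ i j, (U i ∩ U j).Nonempty → SmallContr (U i ∩ U j))
    (h3 : ∀ i j k, (U i ∩ U j ∩ U k).Nonempty → SmallContr (U i ∩ U j ∩ U k))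
    (f : Co X 2) (hf : Closed f) :
    ∃ a b n, LocData U f a b n ∧ n ∈ NZ U := by
  classical
  have e1 : ∀ k, ∃ a : Co X 1, ∀ᶠ x in sm 3, (∀ m, x m ∈ U k) → d a x = f x := by
    intro k
    by_cases h : (U k).Nonempty
    · exact (h1 k h).exact_two f (hf.mono fun x hx _ => hx)
    · exact ⟨0, Eventually.of_forall fun x hx => absurd ⟨x 0, hx 0⟩ h⟩
  choose a ha using e1
  have e2 : ∀ j k, ∃ b : Co X 0, ∀ᶠ x in sm 2, (∀ m, x m ∈ U j ∩ U k) →
      d b x = a k x - a j x := by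
    intro j k
    by_cases h : (U j ∩ U k).Nonempty
    · refine (h2 j k h).exact_one (a k - a j) ?_
      filter_upwards [ha j, ha k] with x hj hk hx
      rw [d_sub, Pi.sub_apply, hj fun m => (hx m).1, hk fun m => (hx m).2, sub_self]
    · exact ⟨0, Eventually.of_forall fun x hx => absurd ⟨x 0, hx 0⟩ h⟩
  choose b hb using e2
  have e3 : ∀ i j k, ∃ c : ℤ, ∀ x, (∀ m, x m ∈ U i ∩ U j ∩ U k) →
      b j k x - b i k x + b i j x = c := by
    intro i j k
    by_cases h : (U i ∩ U j ∩ U k).Nonempty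
    · obtain ⟨c, hc⟩ := (h3 i j k h).const (b j k - b i k + b i j) (by
        filter_upwards [hb j k, hb i k, hb i j] with x hx1 hx2 hx3 hx
        rw [d_add, d_sub, Pi.add_apply, Pi.sub_apply,
          hx1 fun m => ⟨(hx m).1.2, (hx m).2⟩, hx2 fun m => ⟨(hx m).1.1, (hx m).2⟩,
          hx3 fun m => ⟨(hx m).1.1, (hx m).1.2⟩]
        ring)
      exact ⟨c, hc⟩
    · exact ⟨0, fun x hx => absurd ⟨x 0, hx 0⟩ h⟩
  choose n hn using e3
  refine ⟨a, b, n, ⟨ha, hb, hn⟩, ?_⟩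
  rintro i j k l ⟨y, ⟨⟨hyi, hyj⟩, hyk⟩, hyl⟩
  have g1 := hn j k l (fun _ => y) fun _ => ⟨⟨hyj, hyk⟩, hyl⟩
  have g2 := hn i k l (fun _ => y) fun _ => ⟨⟨hyi, hyk⟩, hyl⟩
  have g3 := hn i j l (fun _ => y) fun _ => ⟨⟨hyi, hyj⟩, hyl⟩
  have g4 := hn i j k (fun _ => y) fun _ => ⟨⟨hyi, hyj⟩, hyk⟩
  rw [← g1, ← g2, ← g3, ← g4]
  ring

/-- The cochain of a nerve cochain. -/
def fn (c : X → ι) (n : ι → ι → ι → ℤ) : Co X 2 := fun x => n (c (x 0)) (c (x 1)) (c (x 2))

/-- On small tuples all points are in all the sets chosen by the index function. -/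
def GoodIndex (U : ι → Set X) (c : X → ι) : Prop :=
  ∀ m, ∀ᶠ x : Fin m → X in sm m, ∀ s t, x t ∈ U (c (x s))

lemma exists_goodIndex [CompactSpace X] (U : ι → Set X) (hU : ∀ i, IsOpen (U i))
    (hcov : ⋃ i, U i = Set.univ) : ∃ c : X → ι, GoodIndex U c := by
  obtain ⟨V, hV, h⟩ := lebesgue_number_lemma isCompact_univ hU hcov.ge
  choose c hc using fun x => h x (Set.mem_univ x)
  refine ⟨c, fun m => ?_⟩
  filter_upwards [eventually_sm_of_mem (n := m) hV] with x hx s t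
  exact hc (x s) (hx s t)

/-- (C1): a closed cochain is cohomologous to minus its nerve cochain. -/
lemma LocData.cohomologous {U : ι → Set X} {f : Co X 2} {a : ι → Co X 1} {b : ι → ι → Co X 0}
    {n : ι → ι → ι → ℤ} [Finite ι] (h : LocData U f a b n) {c : X → ι} (hc : GoodIndex U c) :
    ∃ g : Co X 1, Eqv (f + fn c n) (d g) := by
  choose A hA using fun k => ex1 (a k)
  choose B hB using fun j k => ex0 (b j k)
  refine ⟨fun x => A (c (x 0)) (x 0) (x 1) + B (c (x 0)) (c (x 1)) (x 1), ?_⟩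
  have ha : ∀ᶠ x : Fin 3 → X in sm 3, ∀ k, (∀ m, x m ∈ U k) → d (a k) x = f x :=
    eventually_all.2 h.ha
  have hb : ∀ᶠ x : Fin 3 → X in sm 3, ∀ j k, (x 1 ∈ U j ∩ U k) → (x 2 ∈ U j ∩ U k) →
      B j k (x 2) - B j k (x 1) = A k (x 1) (x 2) - A j (x 1) (x 2) := by
    have h0 : ∀ᶠ x : Fin 2 → X in sm 2, ∀ j k, (∀ m, x m ∈ U j ∩ U k) →
      d (b j k) x = a k x - a j x := eventually_all.2 fun j => eventually_all.2 fun k => h.hb j k
    filter_upwards [(tendsto_sm (X := X) (m := 3) ![1, 2]).eventually h0] with x hx j k h1 h2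
    have h3 := hx j k (by intro m; fin_cases m; exacts [h1, h2])
    rw [hA k, hA j, hB j k, d_ex0] at h3
    exact h3
  filter_upwards [ha, hb, hc 3] with x h1 h2 h3
  refine Eq.trans ?_ (d_ex1 (fun s t => A (c s) s t + B (c s) (c t) t) x).symm
  have e1 := h1 (c (x 0)) fun m => h3 0 m
  rw [hA, d_ex1] at e1
  have e2 := h2 (c (x 0)) (c (x 1)) ⟨h3 0 1, h3 1 1⟩ ⟨h3 0 2, h3 1 2⟩
  have e3 := h.hn (c (x 0)) (c (x 1)) (c (x 2)) (fun _ => x 2)
    fun _ => ⟨⟨h3 0 2, h3 1 2⟩, h3 2 2⟩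
  rw [hB, hB, hB] at e3
  rw [Pi.add_apply]
  unfold fn
  rw [← e1, ← e3]
  linarith

end Vale.Agent.P267.H994
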