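import Vale.Agent.P267.H994.Duality
import Vale.Agent.P267.H533.Lam

/-!
# P267, package UNI-FINAL (helper994): the functional `lam` along a sequence of partitions with
mesh tending to zero, and Poincare duality for the nerve.
-/

namespace Vale.Agent.P267.H994

open Filter Topology Uniformity
open Vale.Agent.P267.H533

variable {X : Type*}

/-- Leibniz rule in degrees (2,1). -/
lemma dA_cupA_two_one {A : Type*} [AddCommGroup A] (f : CoA A X 2) (g : Co X 1) :
    dA (cupA (n := 3) rfl f g) = cupA (n := 4) rfl (dA f) g + cupA (n := 4) rfl f (d g) := by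
  obtain ⟨F, rfl⟩ := exA2 f
  obtain ⟨G, rfl⟩ := ex1 g
  funext x
  have e1 := dA_ex3 (fun s t u v => G u v • F s t u) x
  have e2 := dA_ex2 F (fun i : Fin 4 => x ⟨i, by omega⟩)
  have e3 := d_ex1 G (fun i : Fin 3 => x ⟨2 + i, by omega⟩)
  rw [Pi.add_apply]
  refine Eq.trans e1 ?_
  unfold cupA
  rw [e2]
  erw [e3]
  show _ = G (x 3) (x 4) • (F (x 1) (x 2) (x 3) - F (x 0) (x 2) (x 3) + F (x 0) (x 1) (x 3)
      - F (x 0) (x 1) (x 2)) +
    (G (x 3) (x 4) - G (x 2) (x 4) + G (x 2) (x 3)) • F (x 0) (x 1) (x 2)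
  module

/-- Description of `sm n` in a metric space. -/
lemma eventually_sm_metric [PseudoMetricSpace X] {n : ℕ} {P : (Fin n → X) → Prop} :
    (∀ᶠ x in sm n, P x) ↔ ∃ ε > 0, ∀ x : Fin n → X, (∀ i j, dist (x i) (x j) < ε) → P x := by
  rw [eventually_sm_iff]
  constructor
  · rintro ⟨V, hV, h⟩
    obtain ⟨ε, hε, hεV⟩ := Metric.mem_uniformity_dist.1 hV
    exact ⟨ε, hε, fun x hx => h x fun i j => hεV (hx i j)⟩
  · rintro ⟨ε, hε, h⟩
    exact ⟨_, Metric.dist_mem_uniformity hε, fun x hx => h x hx⟩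

lemma dA_eq_dAS {q : ℕ} (F : CoA ℝ X q) : dA F = dAS F := by
  funext x
  simp only [dA, dAS]
  refine Finset.sum_congr rfl fun i _ => ?_
  rw [zsmul_eq_mul]
  push_cast
  rfl

/-- cast of an integral cochain to a real one -/
def toR {q : ℕ} (f : Co X q) : CoA ℝ X q := fun x => (f x : ℝ)

lemma dA_toR {q : ℕ} (f : Co X q) : dA (toR f) = toR (d f) := by
  funext x
  simp only [dA, toR, d, zsmul_eq_mul]
  push_cast
  rfl

lemma cupA_eq_cup22 (f : CoA ℝ X 2) (g : Co X 2) :
    cupA (n := 4) rfl f g = cup22 f (toR g) := by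
  funext x
  simp only [cupA, cup22, toR, zsmul_eq_mul]
  rw [mul_comm]
  congr 1
  · congr 1; funext i; fin_cases i <;> rfl
  · congr 2; funext i; fin_cases i <;> rfl

section germ

variable [PseudoMetricSpace X] {A : Subalgebra ℝ (X → ℝ)} (T : TopInt A)
  {N : ℕ → ℕ} (P : ∀ k, Part A (Fin (N k)))

/-- `lam` along the sequence of partitions, as a germ at infinity. -/
noncomputable def lamG : CoA ℝ X 4 →+ (atTop : Filter ℕ).Germ ℝ where
  toFun F := ((fun k => lam T (P k) F : ℕ → ℝ) : (atTop : Filter ℕ).Germ ℝ)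
  map_zero' := by
    have : (fun k => lam T (P k) (0 : CoA ℝ X 4)) = fun _ => 0 := by
      funext k; simp [lam]
    rw [this]; rfl
  map_add' F G := by
    have : (fun k => lam T (P k) (F + G)) = (fun k => lam T (P k) F) + fun k => lam T (P k) G := by
      funext k; exact lam_add T (P k) F G
    rw [this]; rfl

lemma lamG_apply (F : CoA ℝ X 4) :
    lamG T P F = ((fun k => lam T (P k) F : ℕ → ℝ) : (atTop : Filter ℕ).Germ ℝ) := rfl

lemma lamG_eq_const {F : CoA ℝ X 4} {r : ℝ} :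
    lamG T P F = ((r : ℝ) : (atTop : Filter ℕ).Germ ℝ) ↔ ∀ᶠ k in atTop, lam T (P k) F = r := by
  rw [lamG_apply]
  exact Germ.coe_eq

variable (hP : ∀ η > 0, ∀ᶠ k in atTop, (P k).Fine η)
include hP

lemma lamG_eqv (F : CoA ℝ X 4) (hF : EqvA F 0) : lamG T P F = 0 := by
  obtain ⟨ε, hε, h⟩ := eventually_sm_metric.1 hF
  have : lamG T P F = ((0 : ℝ) : (atTop : Filter ℕ).Germ ℝ) := by
    rw [lamG_eq_const]
    filter_upwards [hP (ε / 2) (by positivity)] with k hk
    exact lam_eq_zero T hk (by linarith) (F := F) fun x hx => h x hx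
  exact this

omit hP in
lemma lamG_d (G : CoA ℝ X 3) : lamG T P (dA G) = 0 := by
  have : lamG T P (dA G) = ((0 : ℝ) : (atTop : Filter ℕ).Germ ℝ) := by
    rw [lamG_eq_const]
    filter_upwards with k
    rw [dA_eq_dAS]
    exact lam_dAS T (P k) G
  exact this

/-- The integral version. -/
noncomputable def lamGZ : Co X 4 →+ (atTop : Filter ℕ).Germ ℝ :=
  (lamG T P).comp
    { toFun := toR
      map_zero' := by funext x; simp [toR]
      map_add' := fun f g => by funext x; simp [toR] }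

omit hP in
lemma lamGZ_apply (F : Co X 4) : lamGZ T P F = lamG T P (toR F) := rfl

lemma lamGZ_eqv (F : Co X 4) (hF : Eqv F 0) : lamGZ T P F = 0 :=
  lamG_eqv T P hP _ (by
    filter_upwards [hF] with x hx
    simp [toR, hx])

omit hP in
lemma lamGZ_d (G : Co X 3) : lamGZ T P (d G) = 0 := by
  rw [lamGZ_apply, ← dA_toR]; exact lamG_d T P _

omit hP in
/-- the germ `1` has infinite order -/
lemma germ_one_torsion_free (k : ℤ) (h : k • (((1 : ℝ) : (atTop : Filter ℕ).Germ ℝ)) = 0) :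
    k = 0 := by
  have h1 : (((k : ℝ) : ℝ) : (atTop : Filter ℕ).Germ ℝ) = ((0 : ℝ) : (atTop : Filter ℕ).Germ ℝ) := by
    have : k • (((1 : ℝ) : (atTop : Filter ℕ).Germ ℝ)) = (((k : ℝ) : ℝ) : (atTop : Filter ℕ).Germ ℝ) := by
      show ((k • (fun _ => (1 : ℝ)) : ℕ → ℝ) : (atTop : Filter ℕ).Germ ℝ) = _
      congr 1
      funext x
      simp
    rw [← this, h]; rfl
  have h2 : ∀ᶠ _ in (atTop : Filter ℕ), (k : ℝ) = 0 := Germ.coe_eq.1 h1
  obtain ⟨_, h3⟩ := h2.exists
  exact_mod_cast h3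

end germ

end Vale.Agent.P267.H994
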