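import Vale.Agent.P267.H175.Cycle

/-!
# P267, package UNI-FINAL (helper994): the linear algebra of the unimodularity theorem
-/

namespace Vale.Agent.P267.H994

open Module Matrix
open Vale.Agent.P267.H175

variable {s1 s2 s3 : Type*}

/-- **Unimodularity, algebraic part.** `w` is the class map from integral cocycles of the nerve
to complex cohomology, `ℓ z'` the linear form `x ↦ ∫ x ∧ w z'`. -/
theorem exists_unimod [Fintype s2] {M1 : IMap s1 s2} {M2 : IMap s2 s3}
    (hM : ∀ u : s1 → ℤ, M2.app (M1.app u) = 0)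
    {V : Type*} [AddCommGroup V] [Module ℂ V] (w : intKer M2 →+ V)
    (hw0 : ∀ u : s1 → ℤ, w ⟨M1.app u, hM u⟩ = 0)
    (hspan : Submodule.span ℂ (Set.range w) = ⊤)
    (ℓ : intKer M2 → (V →ₗ[ℂ] ℂ)) (hsymm : ∀ z z', ℓ z' (w z) = ℓ z (w z'))
    (hint : ∀ z z' : intKer M2, ∃ n : ℤ, ℓ z' (w z) = n)
    (hPD : ∀ c : s2 → ℤ, IsCycle M1 c → ∃ z' : intKer M2, ∀ z : intKer M2,
      ℓ z' (w z) = ∑ j, (c j : ℂ) * z.1 j) :
    ∃ (r : ℕ) (x : Fin r → intKer M2) (b : Basis (Fin r) ℂ V) (G : Matrix (Fin r) (Fin r) ℤ),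
      (∀ i, b i = w (x i)) ∧ (∀ i j, ℓ (x j) (w (x i)) = G i j) ∧ IsUnit G.det ∧
      ∀ z, ∃ k : Fin r → ℤ, w z = ∑ i, k i • w (x i) := by
  classical
  obtain ⟨L, hL⟩ : ∃ L : Submodule ℤ V, ∀ h, h ∈ L ↔ ∃ z, w z = h :=
    ⟨AddSubgroup.toIntSubmodule w.range, fun h => Iff.rfl⟩
  have hfin : Module.Finite ℤ (intKer M2) :=
    Module.Finite.of_injective (AddSubgroup.subtype (intKer M2)).toIntLinearMap
      Subtype.val_injective
  let wL : intKer M2 →ₗ[ℤ] L := LinearMap.codRestrict L w.toIntLinearMap fun z => (hL _).2 ⟨z, rfl⟩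
  have hwL : ∀ z, ((wL z : L) : V) = w z := fun z => rfl
  have hsurj : Function.Surjective wL := by
    rintro ⟨h, hh⟩
    obtain ⟨z, hz⟩ := (hL _).1 hh
    exact ⟨z, Subtype.ext hz⟩
  have hLfin : Module.Finite ℤ L := Module.Finite.of_surjective wL hsurj
  have htf : Module.IsTorsionFree ℤ V := Module.IsTorsionFree.of_smul_eq_zero fun n h hn => by
    rw [← Int.cast_smul_eq_zsmul ℂ, smul_eq_zero] at hn
    exact hn.imp_left fun h => by exact_mod_cast h
  have hfree : Module.Free ℤ L := inferInstance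
  obtain ⟨r, b0⟩ : Σ r : ℕ, Basis (Fin r) ℤ L := ⟨_, Module.finBasis ℤ L⟩
  have hx : ∀ i, ∃ x : intKer M2, wL x = b0 i := fun i => hsurj (b0 i)
  choose x hx using hx
  have hxw : ∀ i, w (x i) = (b0 i : V) := fun i => by rw [← hwL, hx]
  choose G hG using fun i j => hint (x i) (x j)
  have hGs : ∀ i j, G i j = G j i := by
    intro i j
    have : ((G i j : ℤ) : ℂ) = G j i := by rw [← hG, ← hG, hsymm]
    exact_mod_cast this
  -- expansion of an element of the lattice
  have hexp : ∀ z, w z = ∑ i, (b0.repr (wL z) i) • w (x i) := by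
    intro z
    have h4 : ((∑ i, b0.repr (wL z) i • b0 i : L) : V) = w z := by
      rw [b0.sum_repr]; exact hwL z
    rw [Submodule.coe_sum] at h4
    rw [← h4]
    exact Finset.sum_congr rfl fun i _ => by rw [hxw i]; rfl
  -- unimodularity
  have hdual : ∀ i, ∃ m : Fin r → ℤ, ∀ k, ∑ j, G k j * m j = if k = i then 1 else 0 := by
    intro i
    let g : intKer M2 →+ ℤ := ((b0.coord i).comp wL).toAddMonoidHom
    have hg : ∀ z, g z = b0.repr (wL z) i := fun z => rfl
    obtain ⟨E, hE⟩ := exists_extend_int M2 g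
    have hEs : ∀ z, E z = ∑ j, E (Pi.single j 1) * z j := by
      intro z
      conv_lhs => rw [← Finset.univ_sum_single z]
      rw [map_sum]
      refine Finset.sum_congr rfl fun j _ => ?_
      have h1 : (Pi.single j (z j) : s2 → ℤ) = z j • Pi.single j 1 := by
        rw [← Pi.single_smul]
        simp
      rw [h1, map_zsmul, smul_eq_mul, mul_comm]
    obtain ⟨z', hz'⟩ := hPD (fun j => E (Pi.single j 1)) (by
      intro u
      rw [← hEs, hE ⟨M1.app u, hM u⟩, hg]
      have h1 : wL ⟨M1.app u, hM u⟩ = 0 := Subtype.ext (hw0 u)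
      rw [h1, map_zero]
      rfl)
    refine ⟨b0.repr (wL z'), fun k => ?_⟩
    have h1 : ℓ z' (w (x k)) = ((∑ j, G k j * b0.repr (wL z') j : ℤ) : ℂ) := by
      rw [hsymm]
      conv_lhs => rw [hexp z']
      rw [map_sum]
      push_cast
      refine Finset.sum_congr rfl fun j _ => ?_
      rw [map_zsmul, hG, zsmul_eq_mul, mul_comm, hGs]
    have h2 := hz' (x k)
    rw [h1] at h2
    have h3 : ∑ j, ((E (Pi.single j 1) : ℤ) : ℂ) * ((x k).1 j : ℂ) = ((E (x k).1 : ℤ) : ℂ) := by
      rw [hEs (x k).1]; push_cast; rfl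
    rw [h3, hE, hg, hx] at h2
    have h4 : ∑ j, G k j * b0.repr (wL z') j = b0.repr (b0 k) i := by exact_mod_cast h2
    rw [h4, b0.repr_self, Finsupp.single_apply]
  choose m hm using hdual
  have hprod : (Matrix.of G) * (Matrix.of m)ᵀ = 1 := by
    ext k i
    rw [Matrix.mul_apply, Matrix.one_apply]
    simp only [Matrix.of_apply, Matrix.transpose_apply]
    exact hm i k
  have hd := congrArg Matrix.det hprod
  rw [Matrix.det_mul, Matrix.det_one] at hd
  have hunit : IsUnit (Matrix.of G).det := IsUnit.of_mul_eq_one _ hd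
  have hdet : (Matrix.of G).det ≠ 0 := hunit.ne_zero
  have hdetC : ((Matrix.of G).map (Int.cast : ℤ → ℂ)).det ≠ 0 := by
    have : ((Matrix.of G).map (Int.cast : ℤ → ℂ)).det = (((Matrix.of G).det : ℤ) : ℂ) :=
      (Int.cast_det (Matrix.of G)).symm
    rw [this]
    exact_mod_cast hdet
  have hli : LinearIndependent ℂ fun i => w (x i) := by
    rw [Fintype.linearIndependent_iff]
    intro t ht
    have h1 : t ᵥ* ((Matrix.of G).map (Int.cast : ℤ → ℂ)) = 0 := by
      funext j
      have h2 := congrArg (ℓ (x j)) ht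
      rw [map_sum, map_zero] at h2
      rw [Matrix.vecMul, dotProduct, Pi.zero_apply, ← h2]
      refine Finset.sum_congr rfl fun i _ => ?_
      rw [map_smul, smul_eq_mul, hG]; rfl
    intro i
    exact congrFun (Matrix.eq_zero_of_vecMul_eq_zero hdetC h1) i
  have hsp : ⊤ ≤ Submodule.span ℂ (Set.range fun i => w (x i)) := by
    rw [← hspan, Submodule.span_le]
    rintro _ ⟨z, rfl⟩
    rw [SetLike.mem_coe, hexp z]
    refine Submodule.sum_mem _ fun i _ => ?_
    rw [← Int.cast_smul_eq_zsmul ℂ]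
    exact Submodule.smul_mem _ _ (Submodule.subset_span ⟨i, rfl⟩)
  exact ⟨r, x, Basis.mk hli hsp, Matrix.of G, fun i => by simp, hG, hunit,
    fun z => ⟨_, hexp z⟩⟩

end Vale.Agent.P267.H994
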