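import Vale.Agent.P267.H994.Germ
import Vale.Agent.P267.H994.LatAlg
import Vale.Agent.P267.H175.Nerve

/-!
# P267, package UNI-FINAL (helper994): Poincare duality for the nerve of a good cover
-/

namespace Vale.Agent.P267.H994

open Filter Topology Uniformity TopologicalSpace
open Vale.Agent.P267.H533 Vale.Agent.P267.H175

universe u v

variable {X : Type u} {ι : Type v}

/-- real or integral Alexander-Spanier cochain of a nerve cochain `n` and an index function `c` -/
def fnA {A : Type*} (c : X → ι) (n : ι → ι → ι → A) : CoA A X 2 :=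
  fun x => n (c (x 0)) (c (x 1)) (c (x 2))

/-- The input of the duality theorem, for a finite good cover `U`. -/
structure PDIn [PseudoMetricSpace X] [Fintype ι] {A : Subalgebra ℝ (X → ℝ)} (T : TopInt A)
    {N : ℕ → ℕ} (P : ∀ k, Part A (Fin (N k))) (U : ι → Opens X) : Prop where
  fine : ∀ η > 0, ∀ᶠ k in atTop, (P k).Fine η
  contr1 : ∀ i, (U i : Set X).Nonempty → SmallContr (U i : Set X)
  contr2 : ∀ i j, ((U i : Set X) ∩ U j).Nonempty → SmallContr ((U i : Set X) ∩ U j)
  contr3 : ∀ i j k, ((U i : Set X) ∩ U j ∩ U k).Nonempty →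
    SmallContr ((U i : Set X) ∩ U j ∩ U k)
  cls : ∀ i j k, ((U i : Set X) ∩ U j ∩ U k).Nonempty → ∃ ρ : Co X 4, Closed ρ ∧
    CS ((U i : Set X) ∩ U j ∩ U k) ρ ∧ ∀ᶠ l in atTop, lam T (P l) (toR ρ) = 1
  B4 : ∀ j k, ((U j : Set X) ∩ U k).Nonempty → ∀ F : Co X 4, Closed F →
    CS ((U j : Set X) ∩ U k) F → (∀ᶠ l in atTop, lam T (P l) (toR F) = 0) →
      ∃ σ : Co X 3, CS ((U j : Set X) ∩ U k) σ ∧ Eqv (d σ) F
  B3 : ∀ k, (U k : Set X).Nonempty → ∀ S : Co X 3, Closed S → CS (U k : Set X) S →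
      ∃ τ : Co X 2, CS (U k : Set X) τ ∧ Eqv (d τ) S

section nerve

variable [TopologicalSpace X] (U : ι → Opens X)

/-- extension by zero of a cochain on nonempty triple intersections -/
noncomputable def extA {A : Type*} [Zero A] (z : N2 U → A) : ι → ι → ι → A := by
  classical
  exact fun i j k => if h : U i ⊓ U j ⊓ U k ≠ ⊥ then z ⟨(i, j, k), h⟩ else 0

variable {U}

lemma extA_of_ne {A : Type*} [Zero A] (z : N2 U → A) {i j k : ι} (h : U i ⊓ U j ⊓ U k ≠ ⊥) :
    extA U z i j k = z ⟨(i, j, k), h⟩ := by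
  classical
  exact dif_pos h

lemma extA_of_eq {A : Type*} [Zero A] (z : N2 U → A) {i j k : ι} (h : U i ⊓ U j ⊓ U k = ⊥) :
    extA U z i j k = 0 := by
  classical
  exact dif_neg (not_not.2 h)

lemma ne_bot_iff_nonempty {V : Opens X} : V ≠ ⊥ ↔ (V : Set X).Nonempty := by
  constructor
  · intro h
    by_contra hcon
    apply h
    rw [Set.not_nonempty_iff_eq_empty] at hcon
    exact Opens.ext (by simpa using hcon)
  · rintro ⟨x, hx⟩ h
    rw [h] at hx
    exact hx

/-- sums over the triples -/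
lemma sum_N2 [Fintype ι] [Fintype (N2 U)] {A : Type*} [AddCommMonoid A] (G : ι → ι → ι → A)
    (h0 : ∀ i j k, U i ⊓ U j ⊓ U k = ⊥ → G i j k = 0) :
    ∑ p : N2 U, G p.1.1 p.1.2.1 p.1.2.2 = ∑ i, ∑ j, ∑ k, G i j k := by
  classical
  have h1 : ∑ p : N2 U, G p.1.1 p.1.2.1 p.1.2.2
      = ∑ p ∈ (Finset.univ.filter fun p : ι × ι × ι => U p.1 ⊓ U p.2.1 ⊓ U p.2.2 ≠ ⊥),
        G p.1 p.2.1 p.2.2 := by
    rw [Finset.sum_subtype (p := fun p : ι × ι × ι => U p.1 ⊓ U p.2.1 ⊓ U p.2.2 ≠ ⊥)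
      (Finset.univ.filter fun p : ι × ι × ι => U p.1 ⊓ U p.2.1 ⊓ U p.2.2 ≠ ⊥)
      (by simp) (fun p => G p.1 p.2.1 p.2.2)]
  rw [h1, Finset.sum_filter_of_ne]
  · rw [Fintype.sum_prod_type]
    refine Finset.sum_congr rfl fun i _ => ?_
    rw [Fintype.sum_prod_type]
  · intro p _ hp h
    exact hp (h0 _ _ _ h)

lemma extA_nz {A : Type*} [AddCommGroup A] (n : N2 U → A) (hn : (dlt2 U).app n = 0)
    (i j k l : ι) (h : ((U i : Set X) ∩ U j ∩ U k ∩ U l).Nonempty) :
    extA U n j k l - extA U n i k l + extA U n i j l - extA U n i j k = 0 := by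
  have hne : U i ⊓ U j ⊓ U k ⊓ U l ≠ ⊥ := by
    obtain ⟨x, hx⟩ := h
    intro h0
    have : x ∈ (⊥ : Opens X) := by rw [← h0]; exact hx
    exact this
  have h1 := congrFun hn ⟨(i, j, k, l), hne⟩
  rw [dlt2_app] at h1
  rw [extA_of_ne _ (ne_bot_mono (le_inf (le_inf (inf_le_left.trans (inf_le_left.trans
          inf_le_right)) (inf_le_left.trans inf_le_right)) inf_le_right) hne),
    extA_of_ne _ (ne_bot_mono (le_inf (le_inf (inf_le_left.trans (inf_le_left.trans
          inf_le_left)) (inf_le_left.trans inf_le_right)) inf_le_right) hne),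
    extA_of_ne _ (ne_bot_mono (le_inf (le_inf (inf_le_left.trans (inf_le_left.trans
          inf_le_left)) (inf_le_left.trans (inf_le_left.trans inf_le_right))) inf_le_right) hne),
    extA_of_ne _ (ne_bot_mono inf_le_left hne)]
  exact h1

/-- restriction of a cochain to the nonempty triples -/
def rstA {A : Type*} (n : ι → ι → ι → A) : N2 U → A := fun p => n p.1.1 p.1.2.1 p.1.2.2

lemma rstA_mem {n : ι → ι → ι → ℤ} (hn : n ∈ NZ fun i => (U i : Set X)) :
    (dlt2 U).app (rstA (U := U) n) = 0 := by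
  funext p
  obtain ⟨⟨i, j, k, l⟩, h⟩ := p
  rw [dlt2_app]
  refine hn i j k l ?_
  by_contra hcon
  apply h
  rw [Set.not_nonempty_iff_eq_empty] at hcon
  exact Opens.ext (by simpa using hcon)

section dsum

variable [Fintype ι] [DecidableEq ι] (z : ι → ι → ι → ℤ) (j k : ι)

lemma dsum1 : ∑ a, ∑ b, ∑ e, z a b e * (if b = j ∧ e = k then 1 else 0) = ∑ i, z i j k := by
  refine Finset.sum_congr rfl fun i _ => ?_
  rw [Finset.sum_eq_single j, Finset.sum_eq_single k]
  · simp
  · intro b _ hb; simp [hb]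
  · simp
  · intro b _ hb; simp [hb]
  · simp

lemma dsum2 : ∑ a, ∑ b, ∑ e, z a b e * (if a = j ∧ e = k then 1 else 0) = ∑ i, z j i k := by
  rw [Finset.sum_eq_single j]
  · refine Finset.sum_congr rfl fun i _ => ?_
    rw [Finset.sum_eq_single k]
    · simp
    · intro b _ hb; simp [hb]
    · simp
  · intro b _ hb; simp [hb]
  · simp

lemma dsum3 : ∑ a, ∑ b, ∑ e, z a b e * (if a = j ∧ b = k then 1 else 0) = ∑ i, z j k i := by
  rw [Finset.sum_eq_single j, Finset.sum_eq_single k]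
  · simp
  · intro b _ hb; simp [hb]
  · simp
  · intro b _ hb; simp [hb]
  · simp

end dsum

/-- The cycle condition in terms of triple sums. -/
lemma cycle_sum [Fintype ι] [Fintype (N2 U)] {c : N2 U → ℤ} (hc : IsCycle (dlt1 U) c) (j k : ι) :
    ∑ i, (extA U c i j k - extA U c j i k + extA U c j k i) = 0 := by
  classical
  by_cases h : U j ⊓ U k = ⊥
  · refine Finset.sum_eq_zero fun i _ => ?_
    have e1 : U i ⊓ U j ⊓ U k = ⊥ := by
      rw [eq_bot_iff, ← h]
      exact le_inf (inf_le_left.trans inf_le_right) inf_le_right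
    have e2 : U j ⊓ U i ⊓ U k = ⊥ := by
      rw [eq_bot_iff, ← h]
      exact le_inf (inf_le_left.trans inf_le_left) inf_le_right
    have e3 : U j ⊓ U k ⊓ U i = ⊥ := by
      rw [eq_bot_iff, ← h]
      exact inf_le_left
    rw [extA_of_eq _ e1, extA_of_eq _ e2, extA_of_eq _ e3]
    simp
  · have h1 := hc (Pi.single ⟨(j, k), h⟩ 1)
    have h2 : ∀ p : N2 U, c p * (dlt1 U).app (Pi.single ⟨(j, k), h⟩ 1) p
        = (fun a b e => extA U c a b e * (if b = j ∧ e = k then 1 else 0)
          - extA U c a b e * (if a = j ∧ e = k then 1 else 0)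
          + extA U c a b e * (if a = j ∧ b = k then 1 else 0)) p.1.1 p.1.2.1 p.1.2.2 := by
      rintro ⟨⟨a, b, e⟩, hp⟩
      rw [dlt1_app]
      simp only
      rw [extA_of_ne _ hp, ← mul_sub, ← mul_add]
      congr 1
      simp only [Pi.single_apply, Subtype.mk.injEq, Prod.mk.injEq]
    rw [Finset.sum_congr rfl fun p _ => h2 p] at h1
    rw [sum_N2 (U := U) (fun a b e => extA U c a b e * (if b = j ∧ e = k then 1 else 0)
          - extA U c a b e * (if a = j ∧ e = k then 1 else 0)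
          + extA U c a b e * (if a = j ∧ b = k then 1 else 0))
      (fun a b e h => by rw [extA_of_eq _ h]; simp)] at h1
    rw [← h1]
    simp only [Finset.sum_add_distrib, Finset.sum_sub_distrib]
    rw [dsum1, dsum2, dsum3]

end nerve

section pd

variable [PseudoMetricSpace X] {U : ι → Opens X} {c : X → ι}

lemma goodIndex_ne_bot {m : ℕ} {x : Fin m → X} (hx : ∀ s t, x t ∈ (fun i => (U i : Set X)) (c (x s)))
    (s t r : Fin m) : U (c (x s)) ⊓ U (c (x t)) ⊓ U (c (x r)) ≠ ⊥ := by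
  intro h
  have : x s ∈ (⊥ : Opens X) := by
    rw [← h]
    exact ⟨⟨hx s s, hx t s⟩, hx r s⟩
  exact this

/-- nerve cocycles give closed cochains, any coefficients -/
lemma fnA_closed {A : Type*} [AddCommGroup A] (hc : GoodIndex (fun i => (U i : Set X)) c)
    (n : N2 U → A) (hn : (dlt2 U).app n = 0) : EqvA (dA (fnA c (extA U n))) 0 := by
  filter_upwards [hc 4] with x hx
  refine (dA_ex2 (fun s t u => extA U n (c s) (c t) (c u)) x).trans ?_
  exact extA_nz n hn _ _ _ _ ⟨x 0, ⟨⟨hx 0 0, hx 1 0⟩, hx 2 0⟩, hx 3 0⟩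

lemma fnA_ext_rst {A : Type*} [Zero A] (hc : GoodIndex (fun i => (U i : Set X)) c)
    (n : ι → ι → ι → A) : EqvA (fnA c (extA U (rstA n))) (fnA c n) := by
  filter_upwards [hc 3] with x hx
  unfold fnA
  rw [extA_of_ne _ (goodIndex_ne_bot hx 0 1 2)]
  rfl

variable [Fintype ι] {A : Subalgebra ℝ (X → ℝ)} (T : TopInt A)
    {N : ℕ → ℕ} (P : ∀ k, Part A (Fin (N k)))

/-- Poincare duality for one integral cycle of the nerve. -/
theorem pd_one [Fintype (N2 U)] (H : PDIn T P U) (hc : GoodIndex (fun i => (U i : Set X)) c)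
    (z : N2 U → ℤ) (hz : IsCycle (dlt1 U) z) :
    ∃ m : intKer (dlt2 U), ∀ n : N2 U → ℝ, (dlt2 U).app n = 0 →
      ∀ᶠ k in atTop, prodW T (P k) (fnA c (extA U n)) (toR (fnA c (extA U m.1)))
        = ∑ j, (z j : ℝ) * n j := by
  classical
  have hne : ∀ i j k, ¬ ((U i : Set X) ∩ U j ∩ U k).Nonempty → U i ⊓ U j ⊓ U k = ⊥ := by
    intro i j k h
    rw [Set.not_nonempty_iff_eq_empty] at h
    exact Opens.ext (by simpa using h)
  have hρ : ∀ i j k, ∃ ρ : Co X 4, ((U i : Set X) ∩ U j ∩ U k).Nonempty → (Closed ρ ∧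
    CS ((U i : Set X) ∩ U j ∩ U k) ρ ∧ ∀ᶠ l in atTop, lam T (P l) (toR ρ) = 1) := by
    intro i j k
    by_cases h : ((U i : Set X) ∩ U j ∩ U k).Nonempty
    · obtain ⟨ρ, h1⟩ := H.cls i j k h
      exact ⟨ρ, fun _ => h1⟩
    · exact ⟨0, fun h' => absurd h' h⟩
  choose ρ hρ using hρ
  have hLZ : ∀ (F : Co X 4) (r : ℝ), lamGZ T P F = ((r : ℝ) : (atTop : Filter ℕ).Germ ℝ) ↔
      ∀ᶠ l in atTop, lam T (P l) (toR F) = r := fun F r => lamG_eq_const T P
  obtain ⟨ζ, ⟨D⟩⟩ := exists_zig (fun i => (U i : Set X)) (lamGZ T P)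
    (((1 : ℝ) : (atTop : Filter ℕ).Germ ℝ)) ρ
    (fun i j k h => (hρ i j k h).1) (fun i j k h => (hρ i j k h).2.1)
    (fun i j k h => (hLZ _ _).2 (hρ i j k h).2.2)
    (fun j k h F hF hs h0 => H.B4 j k h F hF hs ((hLZ F 0).1 h0))
    (fun k h S hS hs => H.B3 k h S hS hs)
    (extA U z) (fun i j k h => extA_of_eq _ (hne i j k h)) (cycle_sum hz)
  have hζ : Closed ζ := D.closed
  obtain ⟨a, b, n0, hD, hn0⟩ := exists_locData (fun i => (U i : Set X)) H.contr1 H.contr2 H.contr3
    ζ hζ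
  obtain ⟨g, hg⟩ := hD.cohomologous hc
  set m0 : ι → ι → ι → ℤ := -n0 with hm0
  have hm0' : m0 ∈ NZ fun i => (U i : Set X) := (NZ _).neg_mem hn0
  let m : intKer (dlt2 U) := ⟨rstA m0, rstA_mem hm0'⟩
  refine ⟨m, fun n hn => ?_⟩
  set f : CoA ℝ X 2 := fnA c (extA U n) with hf
  set e : Co X 2 := fnA c (extA U m.1) with he
  -- `ζ` is cohomologous to `e`
  have h1 : Eqv ζ (e + d g) := by
    have h2 : Eqv e (fnA c m0) := fnA_ext_rst hc m0
    filter_upwards [hg, h2] with x hx1 hx2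
    rw [Pi.add_apply, ← hx1, hx2, Pi.add_apply]
    simp only [fnA, fn, hm0, Pi.neg_apply]
    ring
  have h3 : lamG T P (cupA rfl f ζ) = lamG T P (cupA rfl f e) + lamG T P (cupA rfl f (d g)) := by
    have h4 : EqvA (cupA (n := 4) rfl f ζ) (cupA (n := 4) rfl f (e + d g)) :=
      Eqv.cupA_right rfl f h1
    rw [← map_add, ← cupA_add_right]
    have h5 : lamG T P (cupA rfl f ζ - cupA rfl f (e + d g)) = 0 :=
      lamG_eqv T P H.fine _ (by
        filter_upwards [h4] with x hx
        rw [Pi.sub_apply, hx, sub_self, Pi.zero_apply])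
    rwa [map_sub, sub_eq_zero] at h5
  have h6 : lamG T P (cupA rfl f (d g)) = 0 := by
    have h7 : cupA (n := 4) rfl f (d g) = dA (cupA (n := 3) rfl f g)
        - cupA (n := 4) rfl (dA f) g := by
      rw [dA_cupA_two_one]; abel
    have h8 : lamG T P (cupA (n := 4) rfl (dA f) g) = 0 := by
      refine lamG_eqv T P H.fine _ ?_
      have h9 : EqvA (dA f) 0 := fnA_closed hc n hn
      have h10 : ∀ᶠ x : Fin 5 → X in sm 5, dA f (fun i : Fin 4 => x ⟨i, by omega⟩) = 0 :=
        (tendsto_sm (X := X) (fun i : Fin 4 => (⟨i, by omega⟩ : Fin 5))).eventually h9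
      filter_upwards [h10] with x hx
      unfold cupA
      rw [hx, smul_zero]
      rfl
    rw [h7, map_sub, lamG_d, h8, sub_zero]
  have h11 := D.eval_nerve (fun i => (U i).isOpen)
    (fun i j k h => extA_of_eq _ (hne i j k h)) (fun i j k h => (hρ i j k h).2.1)
    (lamG T P) (lamG_eqv T P H.fine) (lamG_d T P)
    (fun r : ℝ => ((r : ℝ) : (atTop : Filter ℕ).Germ ℝ))
    (by
      intro i j k h r
      rw [lamG_eq_const]
      filter_upwards [(hρ i j k h).2.2] with l hl
      have h12 : (fun x => ρ i j k x • r : CoA ℝ X 4) = r • toR (ρ i j k) := by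
        funext x
        simp only [Pi.smul_apply, toR, zsmul_eq_mul, smul_eq_mul, mul_comm]
      rw [h12, lam_smul, hl, mul_one])
    (fun i => (U i : Set X)) id (fun _ => rfl) (extA U n) (extA_nz n hn) c
    (by
      intro i
      filter_upwards [hc 3] with x hx _ s t
      exact hx s t)
  change lamG T P (cupA rfl f ζ) = _ at h11
  rw [h3, h6, add_zero] at h11
  have h13 : (∑ i, ∑ j, ∑ k, extA U z i j k • (((extA U n (id i) (id j) (id k) : ℝ)) :
      (atTop : Filter ℕ).Germ ℝ)) = (((∑ j, (z j : ℝ) * n j : ℝ)) : (atTop : Filter ℕ).Germ ℝ) := by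
    let κ : ℝ →+ (atTop : Filter ℕ).Germ ℝ :=
      { toFun := fun r => ((r : ℝ) : (atTop : Filter ℕ).Germ ℝ)
        map_zero' := rfl
        map_add' := fun _ _ => rfl }
    have h14 : ∑ j, (z j : ℝ) * n j
        = ∑ i, ∑ j, ∑ k, ((extA U z i j k : ℤ) : ℝ) * extA U n i j k := by
      rw [← sum_N2 (U := U) (fun i j k => ((extA U z i j k : ℤ) : ℝ) * extA U n i j k)
        (fun i j k h => by rw [extA_of_eq n h, mul_zero])]
      refine Finset.sum_congr rfl fun p _ => ?_
      rw [extA_of_ne z p.2, extA_of_ne n p.2]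
    rw [h14]
    show _ = κ _
    simp only [map_sum]
    refine Finset.sum_congr rfl fun i _ => Finset.sum_congr rfl fun j _ =>
      Finset.sum_congr rfl fun k _ => ?_
    show extA U z i j k • κ (extA U n i j k) = _
    rw [← map_zsmul, zsmul_eq_mul]
  rw [h13, lamG_eq_const] at h11
  -- closedness of `e`
  have hecl : EqvA (dA (toR e)) 0 := by
    rw [dA_toR]
    have h15 : EqvA (dA e) 0 := fnA_closed (A := ℤ) hc m.1 m.2
    filter_upwards [h15] with x hx
    rw [dA_int] at hx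
    simp [toR, hx]
  obtain ⟨ε, hε, h16⟩ := eventually_sm_metric.1 hecl
  filter_upwards [h11, H.fine (ε / 2) (by positivity)] with k hk hk'
  rw [prodW_eq_lam T hk' (ε := ε) (by linarith) f (toR e)
    (fun x hx => by rw [← dA_eq_dAS]; exact h16 x hx), ← cupA_eq_cup22]
  exact hk

omit [PseudoMetricSpace X] in
lemma prodW_add_left [TopologicalSpace X] {κ : Type*} [Fintype κ] {A : Subalgebra ℝ (X → ℝ)}
    (T : TopInt A) (Q : Part A κ) (f f' g : CoA ℝ X 2) :
    prodW T Q (f + f') g = prodW T Q f g + prodW T Q f' g := by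
  simp only [prodW, Pi.add_apply, add_mul, Finset.sum_add_distrib]

omit [PseudoMetricSpace X] in
lemma prodW_add_right [TopologicalSpace X] {κ : Type*} [Fintype κ] {A : Subalgebra ℝ (X → ℝ)}
    (T : TopInt A) (Q : Part A κ) (f g g' : CoA ℝ X 2) :
    prodW T Q f (g + g') = prodW T Q f g + prodW T Q f g' := by
  simp only [prodW, Pi.add_apply, add_mul, mul_add, Finset.sum_add_distrib]

/-- `n ↦ f_n` as an additive map into real cochains -/
noncomputable def fnHom (U : ι → Opens X) (c : X → ι) : (N2 U → ℤ) →+ CoA ℝ X 2 where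
  toFun n := toR (fnA c (extA U n))
  map_zero' := by
    funext x
    simp only [toR, fnA, Pi.zero_apply]
    by_cases h : U (c (x 0)) ⊓ U (c (x 1)) ⊓ U (c (x 2)) = ⊥
    · rw [extA_of_eq _ h]; simp
    · rw [extA_of_ne _ h]; simp
  map_add' m n := by
    funext x
    simp only [toR, fnA, Pi.add_apply]
    by_cases h : U (c (x 0)) ⊓ U (c (x 1)) ⊓ U (c (x 2)) = ⊥
    · simp only [extA_of_eq _ h]; simp
    · simp only [extA_of_ne _ h]; simp

lemma fnHom_apply (n : N2 U → ℤ) : fnHom U c n = toR (fnA c (extA U n)) := rfl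

lemma fnHom_eq (n : N2 U → ℤ) : fnHom U c n = fnA c (extA U fun p => (n p : ℝ)) := by
  funext x
  simp only [fnHom_apply, toR, fnA]
  by_cases h : U (c (x 0)) ⊓ U (c (x 1)) ⊓ U (c (x 2)) = ⊥
  · simp only [extA_of_eq _ h]; simp
  · simp only [extA_of_ne _ h]

/-- the pairing `∫ W(f_n) ∧ W(f_m)` -/
noncomputable def pairW {κ : Type*} [Fintype κ] (Q : Part A κ) (c : X → ι) :
    (N2 U → ℤ) →+ (N2 U → ℤ) →+ ℝ :=
  AddMonoidHom.mk' (fun n => AddMonoidHom.mk' (fun m => prodW T Q (fnHom U c n) (fnHom U c m))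
      fun m m' => by rw [map_add, prodW_add_right])
    fun n n' => by
      ext m
      show prodW T Q (fnHom U c (n + n')) _ = prodW T Q _ _ + prodW T Q _ _
      rw [map_add, prodW_add_left]

omit [Fintype ι] in
lemma pairW_apply {κ : Type*} [Fintype κ] (Q : Part A κ) (n m : N2 U → ℤ) :
    pairW T Q c n m = prodW T Q (fnHom U c n) (fnHom U c m) := rfl

/-- Poincare duality for all integral cycles of the nerve, with one sufficiently fine partition. -/
theorem pd_uniform [Fintype (N2 U)] (H : PDIn T P U) (hc : GoodIndex (fun i => (U i : Set X)) c) :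
    ∀ᶠ k in atTop, ∀ z : N2 U → ℤ, IsCycle (dlt1 U) z →
      ∃ m : intKer (dlt2 U), ∀ n : intKer (dlt2 U),
        pairW T (P k) c n.1 m.1 = ∑ j, (z j : ℝ) * n.1 j := by
  classical
  -- generators of the cycles and of the cocycles
  let Cy : Submodule ℤ (N2 U → ℤ) :=
    { carrier := {z | IsCycle (dlt1 U) z}
      zero_mem' := fun u => by simp
      add_mem' := fun {a b} ha hb u => by
        have h1 := ha u
        have h2 := hb u
        simp only [Pi.add_apply, add_mul, Finset.sum_add_distrib, h1, h2, add_zero]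
      smul_mem' := fun r a ha u => by
        have h1 := ha u
        simp only [Pi.smul_apply, smul_eq_mul, mul_assoc, ← Finset.mul_sum, h1, mul_zero] }
  let Co' : Submodule ℤ (N2 U → ℤ) := AddSubgroup.toIntSubmodule (intKer (dlt2 U))
  obtain ⟨S, hS⟩ : Cy.FG := IsNoetherian.noetherian Cy
  obtain ⟨S', hS'⟩ : Co'.FG := IsNoetherian.noetherian Co'
  have hSmem : ∀ z ∈ S, IsCycle (dlt1 U) z := fun z hz => by
    have : z ∈ Cy := hS ▸ Submodule.subset_span hz
    exact this
  have hS'mem : ∀ n ∈ S', n ∈ intKer (dlt2 U) := fun n hn => by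
    have : n ∈ Co' := hS' ▸ Submodule.subset_span hn
    exact this
  have hm : ∀ z : S, ∃ m : intKer (dlt2 U), ∀ n : N2 U → ℝ, (dlt2 U).app n = 0 →
      ∀ᶠ k in atTop, prodW T (P k) (fnA c (extA U n)) (toR (fnA c (extA U m.1)))
        = ∑ j, (z.1 j : ℝ) * n j := fun z => pd_one T P H hc z.1 (hSmem z.1 z.2)
  choose m hm using hm
  have hev : ∀ᶠ k in atTop, ∀ z : S, ∀ n : S',
      pairW T (P k) c n.1 (m z).1 = ∑ j, (z.1 j : ℝ) * n.1 j := by
    rw [eventually_all]
    intro z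
    rw [eventually_all]
    intro n
    have h1 := hm z (fun p => (n.1 p : ℝ)) (by
      rw [(dlt2 U).app_intCast, mem_intKer.1 (hS'mem n.1 n.2)]
      funext x; simp)
    filter_upwards [h1] with k hk
    rw [pairW_apply, fnHom_eq n.1, fnHom_apply]
    exact hk
  filter_upwards [hev] with k hk z hz
  -- from generators `n`
  have key : ∀ (y : N2 U → ℤ) (w : N2 U → ℤ),
      (∀ n : S', pairW T (P k) c n.1 w = ∑ j, (y j : ℝ) * n.1 j) →
      ∀ n ∈ Co', pairW T (P k) c n w = ∑ j, (y j : ℝ) * n j := by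
    intro y w h n hn
    rw [← hS'] at hn
    induction hn using Submodule.span_induction with
    | mem x hx => exact h ⟨x, hx⟩
    | zero => simp
    | add a b _ _ ha hb =>
      rw [map_add, AddMonoidHom.add_apply, ha, hb, ← Finset.sum_add_distrib]
      refine Finset.sum_congr rfl fun j _ => ?_
      rw [Pi.add_apply]; push_cast; ring
    | smul r a _ ha =>
      rw [map_zsmul, AddMonoidHom.zsmul_apply, ha, zsmul_eq_mul, Finset.mul_sum]
      refine Finset.sum_congr rfl fun j _ => ?_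
      rw [Pi.smul_apply, smul_eq_mul]; push_cast; ring
  have hz' : z ∈ Submodule.span ℤ (S : Set (N2 U → ℤ)) := by rw [hS]; exact hz
  suffices h : ∃ w ∈ Co', ∀ n : S', pairW T (P k) c n.1 w = ∑ j, (z j : ℝ) * n.1 j by
    obtain ⟨w, hw, h⟩ := h
    exact ⟨⟨w, hw⟩, fun n => key z w h n.1 n.2⟩
  clear hz
  induction hz' using Submodule.span_induction with
  | mem x hx => exact ⟨(m ⟨x, hx⟩).1, (m ⟨x, hx⟩).2, fun n => hk ⟨x, hx⟩ n⟩
  | zero => exact ⟨0, Co'.zero_mem, fun n => by simp⟩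
  | add a b _ _ ha hb =>
    obtain ⟨w, hw, h⟩ := ha
    obtain ⟨w', hw', h'⟩ := hb
    refine ⟨w + w', Co'.add_mem hw hw', fun n => ?_⟩
    rw [map_add, h, h', ← Finset.sum_add_distrib]
    refine Finset.sum_congr rfl fun j _ => ?_
    rw [Pi.add_apply]; push_cast; ring
  | smul r a _ ha =>
    obtain ⟨w, hw, h⟩ := ha
    refine ⟨r • w, Co'.smul_mem r hw, fun n => ?_⟩
    rw [map_zsmul, h, zsmul_eq_mul, Finset.mul_sum]
    refine Finset.sum_congr rfl fun j _ => ?_
    rw [Pi.smul_apply, smul_eq_mul]; push_cast; ring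

end pd

end Vale.Agent.P267.H994
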